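import Crest.Agent.S0316.Defs

set_option autoImplicit false
set_option linter.unusedSimpArgs false

/-!
# S0316 / FixedExist: the three explicit fixed points of the time-one map `Phi1`

* `z0 = (4, 1 - 3i, 0, 1 + 3i, 0) / 6` with multiplier `c0 = (-4 + 3i) / 5`;
* `zpt b` for the two real roots `b = ± 2 √26 / 51` of `2601 b² = 104`, with multiplier
  `cpt b = z₃ / conj z₃`.

Everything is a finite computation: at `z0` the twist coefficients are explicit rationals, and at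
`zpt b` one has `N = 35/36 - s²`, `q = -z₃²`, `μ = 17/18 - 2 s²` with `s = 2b - 9/34`, so that the
fixed-point equations become polynomial identities in `b` modulo `2601 b² - 104`.
-/

open Complex

namespace Crest.Agent.S0316

open Crest.GeometryTopology.Quadric

theorem z0_mem : z0 ∈ unitCone := by
  constructor
  · simp only [herm, z0, Fin.sum_univ_five]
    simp [Complex.ext_iff, Complex.div_re, Complex.div_im, Complex.normSq_apply]
    norm_num
  · simp only [z0, Fin.sum_univ_five]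
    simp [Complex.ext_iff, pow_two, Complex.div_re, Complex.div_im, Complex.normSq_apply]
    norm_num

theorem FixedExist_nrm3_z0 : nrm3 z0 = 13 / 18 := by
  simp only [nrm3, z0]
  simp [Complex.normSq_apply, Complex.div_re, Complex.div_im]
  norm_num

theorem FixedExist_quad3_z0 : quad3 z0 = (4 - 3 * I) / 18 := by
  simp only [quad3, z0]
  simp [Complex.ext_iff, pow_two, Complex.div_re, Complex.div_im, Complex.normSq_apply]
  norm_num

theorem FixedExist_mu_z0 : mu z0 = 4 / 9 := by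
  rw [mu, FixedExist_nrm3_z0, FixedExist_quad3_z0]
  simp [Complex.normSq_apply, pow_two, Complex.div_re, Complex.div_im]
  norm_num

theorem FixedExist_twc_z0 (v : ℂ) :
    twc gc z0 v = (3 / 5 - 13 / 15 * I) * v + (1 / 5 + 4 / 15 * I) * (starRingEnd ℂ) v := by
  rw [twc, FixedExist_mu_z0, FixedExist_nrm3_z0, FixedExist_quad3_z0, gc]
  obtain ⟨x, y⟩ := v
  norm_num [Complex.ext_iff, Complex.div_re, Complex.div_im, Complex.normSq_apply]
  constructor <;> ring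

theorem FixedExist_tw_z0_0 : tw gc z0 0 = twc gc z0 (z0 0) := rfl
theorem FixedExist_tw_z0_1 : tw gc z0 1 = twc gc z0 (z0 1) := rfl
theorem FixedExist_tw_z0_2 : tw gc z0 2 = twc gc z0 (z0 2) := rfl
theorem FixedExist_tw_z0_3 : tw gc z0 3 = z0 3 := rfl
theorem FixedExist_tw_z0_4 : tw gc z0 4 = z0 4 := rfl

theorem Phi1_z0 : Phi1 z0 = c0 • z0 := by
  funext i
  fin_cases i
  all_goals
    simp only [Phi1, FixedExist_tw_z0_0, FixedExist_tw_z0_1, FixedExist_tw_z0_2,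
      FixedExist_tw_z0_3, FixedExist_tw_z0_4, FixedExist_twc_z0, c0, Pi.smul_apply, smul_eq_mul]
    simp [z0, Complex.ext_iff, Complex.div_re, Complex.div_im, Complex.normSq_apply]
    try norm_num

theorem bet_sq : 2601 * bet ^ 2 = 104 := by
  unfold bet
  rw [div_pow, mul_pow, Real.sq_sqrt (by norm_num)]
  norm_num

theorem bet_pos : 0 < bet := by
  unfold bet
  positivity

theorem zpt_mem (b : ℝ) (hb : 2601 * b ^ 2 = 104) : zpt b ∈ unitCone := by
  constructor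
  · simp only [herm, zpt, Fin.sum_univ_five]
    simp [Complex.ext_iff, Complex.div_re, Complex.div_im, Complex.normSq_apply]
    norm_num
    constructor
    · linear_combination (1 / 289 : ℝ) * hb
    · ring
  · simp only [zpt, Fin.sum_univ_five]
    simp [Complex.ext_iff, pow_two, Complex.div_re, Complex.div_im, Complex.normSq_apply]
    norm_num
    constructor
    · linear_combination (-1 / 289 : ℝ) * hb
    · ring

theorem FixedExist_nrm3_zpt (b : ℝ) (hb : 2601 * b ^ 2 = 104) :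
    nrm3 (zpt b) = 35 / 36 - (2 * b - 9 / 34) ^ 2 := by
  simp only [nrm3, zpt]
  simp [Complex.normSq_apply, Complex.div_re, Complex.div_im]
  norm_num
  linear_combination (1 / 289 : ℝ) * hb

theorem FixedExist_quad3_zpt (b : ℝ) (hb : 2601 * b ^ 2 = 104) :
    quad3 (zpt b) = -(1 / 6 + ((2 * b - 9 / 34 : ℝ) : ℂ) * I) ^ 2 := by
  simp only [quad3, zpt]
  simp [Complex.ext_iff, pow_two, Complex.div_re, Complex.div_im, Complex.normSq_apply]
  norm_num
  constructor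
  · linear_combination (-1 / 289 : ℝ) * hb
  · ring

theorem FixedExist_mu_zpt (b : ℝ) (hb : 2601 * b ^ 2 = 104) :
    mu (zpt b) = 17 / 18 - 2 * (2 * b - 9 / 34) ^ 2 := by
  rw [mu, FixedExist_nrm3_zpt b hb, FixedExist_quad3_zpt b hb]
  simp [Complex.normSq_apply, pow_two, Complex.div_re, Complex.div_im]
  norm_num
  ring

/-- the numerator of the twist coordinate at `zpt b` -/
noncomputable def FixedExist_W (b : ℝ) (v : ℂ) : ℂ :=
  (((1 - (3 / 4 : ℝ) ^ 2 * (17 / 18 - 2 * (2 * b - 9 / 34) ^ 2) : ℝ) : ℂ)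
      - 2 * I * (((3 / 4 : ℝ) * (35 / 36 - (2 * b - 9 / 34) ^ 2) : ℝ) : ℂ)) * v
    + 2 * I * (((3 / 4 : ℝ) : ℝ) : ℂ) * (-(1 / 6 + ((2 * b - 9 / 34 : ℝ) : ℂ) * I) ^ 2)
      * (starRingEnd ℂ) v

/-- the denominator of the twist coordinate at `zpt b` -/
noncomputable def FixedExist_D (b : ℝ) : ℝ :=
  1 + (3 / 4 : ℝ) ^ 2 * (17 / 18 - 2 * (2 * b - 9 / 34) ^ 2)

theorem FixedExist_twc_zpt (b : ℝ) (hb : 2601 * b ^ 2 = 104) (v : ℂ) :
    twc gc (zpt b) v = FixedExist_W b v / ((FixedExist_D b : ℝ) : ℂ) := by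
  rw [twc, FixedExist_mu_zpt b hb, FixedExist_nrm3_zpt b hb, FixedExist_quad3_zpt b hb, gc]
  rfl

theorem FixedExist_D_pos (b : ℝ) (hb : 2601 * b ^ 2 = 104) : 0 < FixedExist_D b := by
  unfold FixedExist_D
  nlinarith [sq_nonneg (b + 1)]

theorem FixedExist_key0 (b : ℝ) (hb : 2601 * b ^ 2 = 104) :
    -(7 * FixedExist_W b (2 / 3 - (b : ℂ) * I)
        - 4 * FixedExist_W b (1 / 6 + ((2 * b + 9 / 34 : ℝ) : ℂ) * I)
        - 4 * ((FixedExist_D b : ℝ) : ℂ) * (1 / 6 + ((2 * b - 9 / 34 : ℝ) : ℂ) * I))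
      * (1 / 6 - ((2 * b - 9 / 34 : ℝ) : ℂ) * I)
    = 9 * ((FixedExist_D b : ℝ) : ℂ) * (1 / 6 + ((2 * b - 9 / 34 : ℝ) : ℂ) * I)
      * (2 / 3 - (b : ℂ) * I) := by
  simp only [FixedExist_W, FixedExist_D]
  simp [Complex.ext_iff, pow_two, Complex.div_re, Complex.div_im, Complex.normSq_apply]
  norm_num
  constructor
  · linear_combination ((17831/751689) + (-310/4913)*b + (16/289)*b^2 : ℝ) * hb
  · linear_combination ((-613/19652) + (21/578)*b : ℝ) * hb

theorem FixedExist_key1 (b : ℝ) (hb : 2601 * b ^ 2 = 104) :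
    -(4 * FixedExist_W b (2 / 3 - (b : ℂ) * I)
        + 8 * FixedExist_W b (1 / 6 + ((2 * b + 9 / 34 : ℝ) : ℂ) * I)
        - ((FixedExist_D b : ℝ) : ℂ) * (1 / 6 + ((2 * b - 9 / 34 : ℝ) : ℂ) * I))
      * (1 / 6 - ((2 * b - 9 / 34 : ℝ) : ℂ) * I)
    = 9 * ((FixedExist_D b : ℝ) : ℂ) * (1 / 6 + ((2 * b - 9 / 34 : ℝ) : ℂ) * I)
      * (1 / 6 + ((2 * b + 9 / 34 : ℝ) : ℂ) * I) := by
  simp only [FixedExist_W, FixedExist_D]
  simp [Complex.ext_iff, pow_two, Complex.div_re, Complex.div_im, Complex.normSq_apply]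
  norm_num
  constructor
  · linear_combination ((20948/751689) + (8/4913)*b + (-32/289)*b^2 : ℝ) * hb
  · linear_combination ((29/4913) + (6/289)*b : ℝ) * hb

theorem FixedExist_key3 (b : ℝ) (hb : 2601 * b ^ 2 = 104) :
    -(4 * FixedExist_W b (2 / 3 - (b : ℂ) * I)
        - FixedExist_W b (1 / 6 + ((2 * b + 9 / 34 : ℝ) : ℂ) * I)
        + 8 * ((FixedExist_D b : ℝ) : ℂ) * (1 / 6 + ((2 * b - 9 / 34 : ℝ) : ℂ) * I))
      * (1 / 6 - ((2 * b - 9 / 34 : ℝ) : ℂ) * I)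
    = 9 * ((FixedExist_D b : ℝ) : ℂ) * (1 / 6 + ((2 * b - 9 / 34 : ℝ) : ℂ) * I)
      * (1 / 6 + ((2 * b - 9 / 34 : ℝ) : ℂ) * I) := by
  simp only [FixedExist_W, FixedExist_D]
  simp [Complex.ext_iff, pow_two, Complex.div_re, Complex.div_im, Complex.normSq_apply]
  norm_num
  constructor
  · linear_combination ((11534/751689) + (-154/4913)*b + (4/289)*b^2 : ℝ) * hb
  · linear_combination ((-73/4913) + (6/289)*b : ℝ) * hb

theorem FixedExist_W_zero (b : ℝ) : FixedExist_W b 0 = 0 := by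
  simp [FixedExist_W]

theorem FixedExist_cz3_ne (b : ℝ) : (1 / 6 - ((2 * b - 9 / 34 : ℝ) : ℂ) * I) ≠ 0 := by
  intro h
  have h1 := congrArg Complex.re h
  simp at h1

theorem FixedExist_tw_zpt_0 (b : ℝ) :
    tw gc (zpt b) 0 = twc gc (zpt b) (2 / 3 - (b : ℂ) * I) := rfl
theorem FixedExist_tw_zpt_1 (b : ℝ) :
    tw gc (zpt b) 1 = twc gc (zpt b) (1 / 6 + ((2 * b + 9 / 34 : ℝ) : ℂ) * I) := rfl
theorem FixedExist_tw_zpt_2 (b : ℝ) : tw gc (zpt b) 2 = twc gc (zpt b) 0 := rfl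
theorem FixedExist_tw_zpt_3 (b : ℝ) :
    tw gc (zpt b) 3 = 1 / 6 + ((2 * b - 9 / 34 : ℝ) : ℂ) * I := rfl
theorem FixedExist_tw_zpt_4 (b : ℝ) : tw gc (zpt b) 4 = 0 := rfl

theorem FixedExist_alg0 (W0 W1 D z3 c3 z0 : ℂ) (hD : D ≠ 0) (hc : c3 ≠ 0)
    (k : -(7 * W0 - 4 * W1 - 4 * D * z3) * c3 = 9 * D * z3 * z0) :
    -(7 * (W0 / D) - 4 * (W1 / D) - 4 * z3) / 9 = z3 / c3 * z0 := by
  field_simp
  linear_combination k

theorem FixedExist_alg1 (W0 W1 D z3 c3 z1 : ℂ) (hD : D ≠ 0) (hc : c3 ≠ 0)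
    (k : -(4 * W0 + 8 * W1 - D * z3) * c3 = 9 * D * z3 * z1) :
    -(4 * (W0 / D) + 8 * (W1 / D) - z3) / 9 = z3 / c3 * z1 := by
  field_simp
  linear_combination k

theorem FixedExist_alg3 (W0 W1 D z3 c3 : ℂ) (hD : D ≠ 0) (hc : c3 ≠ 0)
    (k : -(4 * W0 - W1 + 8 * D * z3) * c3 = 9 * D * z3 * z3) :
    -(4 * (W0 / D) - W1 / D + 8 * z3) / 9 = z3 / c3 * z3 := by
  field_simp
  linear_combination k

theorem Phi1_zpt (b : ℝ) (hb : 2601 * b ^ 2 = 104) : Phi1 (zpt b) = cpt b • zpt b := by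
  have hD : ((FixedExist_D b : ℝ) : ℂ) ≠ 0 := by
    exact_mod_cast (FixedExist_D_pos b hb).ne'
  have hc := FixedExist_cz3_ne b
  funext i
  fin_cases i
  · show -(7 * tw gc (zpt b) 0 - 4 * tw gc (zpt b) 1 - 4 * tw gc (zpt b) 3) / 9
      = cpt b * (2 / 3 - (b : ℂ) * I)
    rw [FixedExist_tw_zpt_0, FixedExist_tw_zpt_1, FixedExist_tw_zpt_3,
      FixedExist_twc_zpt b hb, FixedExist_twc_zpt b hb, cpt]
    exact FixedExist_alg0 _ _ _ _ _ _ hD hc (FixedExist_key0 b hb)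
  · show -(4 * tw gc (zpt b) 0 + 8 * tw gc (zpt b) 1 - tw gc (zpt b) 3) / 9
      = cpt b * (1 / 6 + ((2 * b + 9 / 34 : ℝ) : ℂ) * I)
    rw [FixedExist_tw_zpt_0, FixedExist_tw_zpt_1, FixedExist_tw_zpt_3,
      FixedExist_twc_zpt b hb, FixedExist_twc_zpt b hb, cpt]
    exact FixedExist_alg1 _ _ _ _ _ _ hD hc (FixedExist_key1 b hb)
  · show -(tw gc (zpt b) 2) = cpt b * 0
    rw [FixedExist_tw_zpt_2, FixedExist_twc_zpt b hb, FixedExist_W_zero]
    simp
  · show -(4 * tw gc (zpt b) 0 - tw gc (zpt b) 1 + 8 * tw gc (zpt b) 3) / 9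
      = cpt b * (1 / 6 + ((2 * b - 9 / 34 : ℝ) : ℂ) * I)
    rw [FixedExist_tw_zpt_0, FixedExist_tw_zpt_1, FixedExist_tw_zpt_3,
      FixedExist_twc_zpt b hb, FixedExist_twc_zpt b hb, cpt]
    exact FixedExist_alg3 _ _ _ _ _ hD hc (FixedExist_key3 b hb)
  · show tw gc (zpt b) 4 = cpt b * 0
    rw [FixedExist_tw_zpt_4]
    simp

/-- the three points are pairwise non-proportional -/
theorem z0_not_smul_zpt (b : ℝ) (a : ℂ) : z0 ≠ a • zpt b := by
  intro h
  have h0 := congrFun h 0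
  have h1 := congrFun h 1
  have h3 := congrFun h 3
  simp [z0, zpt, Complex.ext_iff, Complex.div_re, Complex.div_im, Complex.normSq_apply] at h0 h1 h3
  obtain ⟨h0r, h0i⟩ := h0
  obtain ⟨h1r, h1i⟩ := h1
  obtain ⟨h3r, h3i⟩ := h3
  have hai : a.im = 0 := by linarith
  have har : a.re = -17 / 9 := by linarith
  rw [hai, har] at h0r
  norm_num at h0r

theorem zpt_not_smul_zpt (b b' : ℝ) (hbb : b ≠ b') (a : ℂ) : zpt b ≠ a • zpt b' := by
  intro h
  have h0 := congrFun h 0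
  have h1 := congrFun h 1
  have h3 := congrFun h 3
  simp [zpt, Complex.ext_iff, Complex.div_re, Complex.div_im, Complex.normSq_apply] at h0 h1 h3
  obtain ⟨h0r, h0i⟩ := h0
  obtain ⟨h1r, h1i⟩ := h1
  obtain ⟨h3r, h3i⟩ := h3
  have hai : a.im = 0 := by linarith
  have har : a.re = 1 := by linarith
  rw [hai, har] at h0i
  apply hbb
  linarith

end Crest.Agent.S0316
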