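import Crest.Agent.S0316.Defs

set_option autoImplicit false

/-!
# S0316 / OrthPath: multiplying an isotopy by a path of real orthogonal matrices

If `(Ψ, H)` satisfies Hamilton's equation (`HamPair`) and `M t` is a smooth path of real
orthogonal matrices with entrywise derivative `M' t`, then `(t, z) ↦ M t · Ψ (t, z)` satisfies
Hamilton's equation with the Hamiltonian `Im ⟨M' Mᵀ ζ, ζ⟩ + H (t, Mᵀ ζ)`.
-/

open Complex

namespace Crest.Agent.S0316

open Crest.GeometryTopology.Quadric

/-! ### algebra of `act` and `herm` -/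

lemma orthPath_act_add (M : Matrix (Fin 5) (Fin 5) ℝ) (u w : Fin 5 → ℂ) :
    act M (u + w) = act M u + act M w := by
  funext i
  simp [act, mul_add, Finset.sum_add_distrib]

lemma orthPath_act_smul (M : Matrix (Fin 5) (Fin 5) ℝ) (c : ℂ) (u : Fin 5 → ℂ) :
    act M (c • u) = c • act M u := by
  funext i
  simp only [act, Pi.smul_apply, smul_eq_mul, Finset.mul_sum]
  exact Finset.sum_congr rfl fun j _ => by ring

lemma orthPath_act_act (A B : Matrix (Fin 5) (Fin 5) ℝ) (z : Fin 5 → ℂ) :
    act A (act B z) = act (A * B) z := by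
  funext i
  simp only [act, Matrix.mul_apply, Finset.mul_sum, Complex.ofReal_sum, Complex.ofReal_mul,
    Finset.sum_mul]
  rw [Finset.sum_comm]
  exact Finset.sum_congr rfl fun j _ => Finset.sum_congr rfl fun k _ => by ring

lemma orthPath_act_one (z : Fin 5 → ℂ) : act 1 z = z := by
  funext i
  simp only [act, Matrix.one_apply]
  rw [Finset.sum_eq_single i]
  · simp
  · intro j _ hj
    simp [Ne.symm hj]
  · intro h
    exact absurd (Finset.mem_univ i) h

lemma orthPath_herm_act (M : Matrix (Fin 5) (Fin 5) ℝ) (u w : Fin 5 → ℂ) :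
    herm (act M u) w = herm u (act M.transpose w) := by
  simp only [herm, act, map_sum, map_mul, Complex.conj_ofReal, Matrix.transpose_apply,
    Finset.sum_mul, Finset.mul_sum]
  rw [Finset.sum_comm]
  exact Finset.sum_congr rfl fun j _ => Finset.sum_congr rfl fun k _ => by ring

lemma orthPath_herm_add_left (u v w : Fin 5 → ℂ) : herm (u + v) w = herm u w + herm v w := by
  simp [herm, add_mul, Finset.sum_add_distrib]

lemma orthPath_herm_conj (u w : Fin 5 → ℂ) : herm u w = starRingEnd ℂ (herm w u) := by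
  simp only [herm, map_sum, map_mul, Complex.conj_conj]
  exact Finset.sum_congr rfl fun j _ => by ring

lemma orthPath_herm_smul (c : ℂ) (u w : Fin 5 → ℂ) :
    herm (c • u) (c • w) = (starRingEnd ℂ c * c) * herm u w := by
  simp only [herm, Pi.smul_apply, smul_eq_mul, map_mul, Finset.mul_sum]
  exact Finset.sum_congr rfl fun j _ => by ring

/-- orthogonal matrices preserve the Hermitian product -/
lemma orthPath_herm_orth (M : Matrix (Fin 5) (Fin 5) ℝ) (h : M.transpose * M = 1)
    (u w : Fin 5 → ℂ) : herm (act M u) (act M w) = herm u w := by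
  rw [orthPath_herm_act, orthPath_act_act, h, orthPath_act_one]

/-- orthogonal matrices preserve the complex bilinear form -/
lemma orthPath_quad_orth (M : Matrix (Fin 5) (Fin 5) ℝ) (h : M.transpose * M = 1)
    (u : Fin 5 → ℂ) : ∑ j, act M u j ^ 2 = ∑ j, u j ^ 2 := by
  have key : ∀ v w : Fin 5 → ℂ, ∑ j, act M v j * w j = ∑ j, v j * act M.transpose w j := by
    intro v w
    simp only [act, Matrix.transpose_apply, Finset.sum_mul, Finset.mul_sum]
    rw [Finset.sum_comm]
    exact Finset.sum_congr rfl fun j _ => Finset.sum_congr rfl fun k _ => by ring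
  have h2 : ∀ j, act M u j ^ 2 = act M u j * act M u j := fun j => sq _
  simp only [h2]
  rw [key, orthPath_act_act, h, orthPath_act_one]
  exact Finset.sum_congr rfl fun j _ => (sq _).symm

/-- for a skew-symmetric real matrix `B` the form `Im ⟨B u, w⟩` is symmetric -/
lemma orthPath_im_herm_skew (B : Matrix (Fin 5) (Fin 5) ℝ) (hB : B.transpose = -B)
    (u w : Fin 5 → ℂ) : (herm (act B w) u).im = (herm (act B u) w).im := by
  have hneg : act (-B) u = -act B u := by
    funext i
    simp [act]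
  rw [orthPath_herm_act, hB, hneg, orthPath_herm_conj w (-act B u)]
  have : herm (-act B u) w = -herm (act B u) w := by
    simp [herm]
  rw [this]
  simp

/-- the matrix `M' Mᵀ` is skew-symmetric along a path of orthogonal matrices -/
lemma orthPath_skew (M M' : ℝ → Matrix (Fin 5) (Fin 5) ℝ)
    (hd : ∀ t i j, HasDerivAt (fun s => M s i j) (M' t i j) t)
    (horth : ∀ t, (M t).transpose * M t = 1) (t : ℝ) :
    (M' t * (M t).transpose).transpose = -(M' t * (M t).transpose) := by
  ext i j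
  have hconst : ∀ s, ∑ k, M s j k * M s i k = (1 : Matrix (Fin 5) (Fin 5) ℝ) j i := by
    intro s
    have h1 : M s * (M s).transpose = 1 := mul_eq_one_comm.mp (horth s)
    have h2 := congrFun (congrFun h1 j) i
    simpa [Matrix.mul_apply] using h2
  have hD : HasDerivAt (fun s => ∑ k, M s j k * M s i k)
      (∑ k, (M' t j k * M t i k + M t j k * M' t i k)) t :=
    HasDerivAt.fun_sum fun k _ => (hd t j k).mul (hd t i k)
  have hD0 : HasDerivAt (fun s => ∑ k, M s j k * M s i k) 0 t := by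
    simp only [hconst]
    exact hasDerivAt_const t _
  have h0 := hD.unique hD0
  simp only [Matrix.transpose_apply, Matrix.mul_apply, Matrix.neg_apply]
  rw [Finset.sum_add_distrib] at h0
  have e : ∑ k, M t j k * M' t i k = ∑ k, M' t i k * M t j k :=
    Finset.sum_congr rfl fun k _ => mul_comm _ _
  linarith

/-! ### `act` as a continuous linear map, derivatives -/

/-- `act M` as a continuous real-linear map -/
noncomputable def orthPath_actL (M : Matrix (Fin 5) (Fin 5) ℝ) :
    (Fin 5 → ℂ) →L[ℝ] (Fin 5 → ℂ) :=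
  ContinuousLinearMap.pi fun i =>
    ∑ j, (M i j) • (ContinuousLinearMap.proj j : (Fin 5 → ℂ) →L[ℝ] ℂ)

lemma orthPath_actL_apply (M : Matrix (Fin 5) (Fin 5) ℝ) (z : Fin 5 → ℂ) :
    orthPath_actL M z = act M z := by
  funext i
  simp [orthPath_actL, act]

/-- derivative of the quadratic form `x ↦ Im ⟨B x, x⟩` -/
lemma orthPath_hasFDerivAt_quad (B : Matrix (Fin 5) (Fin 5) ℝ) (x₀ : Fin 5 → ℂ) :
    ∃ L : (Fin 5 → ℂ) →L[ℝ] ℝ,
      HasFDerivAt (fun x : Fin 5 → ℂ => (herm (act B x) x).im) L x₀ ∧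
      ∀ w, L w = (herm (act B x₀) w).im + (herm (act B w) x₀).im := by
  have hterm : ∀ j : Fin 5, HasFDerivAt (fun x : Fin 5 → ℂ => starRingEnd ℂ (act B x j) * x j)
      ((starRingEnd ℂ (act B x₀ j)) • (ContinuousLinearMap.proj j : (Fin 5 → ℂ) →L[ℝ] ℂ) +
        (x₀ j) • ((Complex.conjCLE : ℂ →L[ℝ] ℂ).comp
          ((ContinuousLinearMap.proj j : (Fin 5 → ℂ) →L[ℝ] ℂ).comp (orthPath_actL B)))) x₀ := by
    intro j
    have h1 : HasFDerivAt (fun x : Fin 5 → ℂ => starRingEnd ℂ (act B x j))
        ((Complex.conjCLE : ℂ →L[ℝ] ℂ).comp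
          ((ContinuousLinearMap.proj j : (Fin 5 → ℂ) →L[ℝ] ℂ).comp (orthPath_actL B))) x₀ := by
      have h := ((Complex.conjCLE : ℂ →L[ℝ] ℂ).comp
          ((ContinuousLinearMap.proj j : (Fin 5 → ℂ) →L[ℝ] ℂ).comp
            (orthPath_actL B))).hasFDerivAt (x := x₀)
      have e : (fun x : Fin 5 → ℂ => starRingEnd ℂ (act B x j)) =
          ⇑((Complex.conjCLE : ℂ →L[ℝ] ℂ).comp
            ((ContinuousLinearMap.proj j : (Fin 5 → ℂ) →L[ℝ] ℂ).comp (orthPath_actL B))) := by
        funext x
        simp [orthPath_actL_apply]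
      rw [e]
      exact h
    have h2 : HasFDerivAt (fun x : Fin 5 → ℂ => x j)
        (ContinuousLinearMap.proj j : (Fin 5 → ℂ) →L[ℝ] ℂ) x₀ :=
      (ContinuousLinearMap.proj j : (Fin 5 → ℂ) →L[ℝ] ℂ).hasFDerivAt
    exact h1.mul h2
  have hsum := HasFDerivAt.fun_sum (u := Finset.univ) fun j _ => hterm j
  have him := Complex.imCLM.hasFDerivAt.comp x₀ hsum
  refine ⟨_, him, fun w => ?_⟩
  simp only [ContinuousLinearMap.comp_apply, sum_apply, add_apply, smul_apply,
    ContinuousLinearMap.proj_apply, orthPath_actL_apply, Complex.imCLM_apply, smul_eq_mul,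
    Finset.sum_add_distrib, Complex.add_im, herm]
  congr 2
  exact Finset.sum_congr rfl fun j _ => mul_comm _ _

/-! ### smoothness -/

section smooth

variable {E : Type*} [NormedAddCommGroup E] [NormedSpace ℝ E] {n : WithTop ℕ∞}

lemma orthPath_contDiff_act (A : ℝ → Matrix (Fin 5) (Fin 5) ℝ)
    (hA : ∀ i j, ContDiff ℝ n (fun t => A t i j)) {f : E → ℝ} {g : E → Fin 5 → ℂ}
    (hf : ContDiff ℝ n f) (hg : ContDiff ℝ n g) :
    ContDiff ℝ n (fun p => act (A (f p)) (g p)) := by
  rw [contDiff_pi]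
  intro i
  have hcomp := contDiff_pi.mp hg
  refine ContDiff.sum fun j _ => ContDiff.mul ?_ (hcomp j)
  exact Complex.ofRealCLM.contDiff.comp ((hA i j).comp hf)

lemma orthPath_contDiff_herm {u v : E → Fin 5 → ℂ} (hu : ContDiff ℝ n u) (hv : ContDiff ℝ n v) :
    ContDiff ℝ n (fun p => herm (u p) (v p)) := by
  have hu' := contDiff_pi.mp hu
  have hv' := contDiff_pi.mp hv
  refine ContDiff.sum fun j _ => ContDiff.mul ?_ (hv' j)
  exact Complex.conjCLE.contDiff.comp (hu' j)

end smooth

/-! ### the two statements -/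

theorem HamPair.orth {Ψ : ℝ × (Fin 5 → ℂ) → (Fin 5 → ℂ)} {H : ℝ × (Fin 5 → ℂ) → ℝ}
    (h : HamPair Ψ H) (M M' : ℝ → Matrix (Fin 5) (Fin 5) ℝ)
    (hM : ∀ i j, ContDiff ℝ (⊤ : ℕ∞) (fun t => M t i j))
    (hM' : ∀ i j, ContDiff ℝ (⊤ : ℕ∞) (fun t => M' t i j))
    (hd : ∀ t i j, HasDerivAt (fun s => M s i j) (M' t i j) t)
    (horth : ∀ t, (M t).transpose * M t = 1) :
    HamPair (orthPsi M Ψ) (orthHam M M' H) := by
  have hMT : ∀ i j, ContDiff ℝ (⊤ : ℕ∞) (fun t => (M t).transpose i j) := fun i j => hM j i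
  have hB : ∀ i j, ContDiff ℝ (⊤ : ℕ∞) (fun t => (M' t * (M t).transpose) i j) := by
    intro i j
    simp only [Matrix.mul_apply, Matrix.transpose_apply]
    exact ContDiff.sum fun k _ => (hM' i k).mul (hM j k)
  refine ⟨?_, ?_, ?_⟩
  · -- smoothness of the isotopy
    exact orthPath_contDiff_act M hM contDiff_fst h.smooth_Ψ
  · -- smoothness of the Hamiltonian
    have h1 : ContDiff ℝ (⊤ : ℕ∞) (fun p : ℝ × (Fin 5 → ℂ) =>
        (herm (act (M' p.1 * (M p.1).transpose) p.2) p.2).im) :=
      Complex.imCLM.contDiff.comp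
        (orthPath_contDiff_herm
          (orthPath_contDiff_act (fun t => M' t * (M t).transpose) hB contDiff_fst contDiff_snd)
          contDiff_snd)
    have h2 : ContDiff ℝ (⊤ : ℕ∞) (fun p : ℝ × (Fin 5 → ℂ) =>
        H (p.1, act (M p.1).transpose p.2)) :=
      h.smooth_H.comp (contDiff_fst.prodMk
        (orthPath_contDiff_act (fun t => (M t).transpose) hMT contDiff_fst contDiff_snd))
    exact h1.add h2
  · -- Hamilton's equation
    intro t z w
    have hne : ((⊤ : ℕ∞) : WithTop ℕ∞) ≠ 0 := by simp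
    have hγ : HasDerivAt (fun s : ℝ => Ψ (s, z)) (deriv (fun s : ℝ => Ψ (s, z)) t) t := by
      have hc : ContDiff ℝ (⊤ : ℕ∞) (fun s : ℝ => Ψ (s, z)) :=
        h.smooth_Ψ.comp (contDiff_id.prodMk contDiff_const)
      exact ((hc.differentiable hne) t).hasDerivAt
    -- derivative of the new isotopy
    have hder : HasDerivAt (fun s : ℝ => orthPsi M Ψ (s, z))
        (act (M' t) (Ψ (t, z)) + act (M t) (deriv (fun s : ℝ => Ψ (s, z)) t)) t := by
      rw [hasDerivAt_pi]
      intro i
      have hcomp := hasDerivAt_pi.mp hγ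
      have hj : ∀ j : Fin 5, HasDerivAt (fun s : ℝ => ((M s i j : ℝ) : ℂ) * Ψ (s, z) j)
          (((M' t i j : ℝ) : ℂ) * Ψ (t, z) j +
            ((M t i j : ℝ) : ℂ) * deriv (fun s : ℝ => Ψ (s, z)) t j) t := fun j =>
        ((hd t i j).ofReal_comp).mul (hcomp j)
      have hs := HasDerivAt.fun_sum (u := Finset.univ) fun j _ => hj j
      have e : (act (M' t) (Ψ (t, z)) + act (M t) (deriv (fun s : ℝ => Ψ (s, z)) t)) i =
          ∑ j, (((M' t i j : ℝ) : ℂ) * Ψ (t, z) j +
            ((M t i j : ℝ) : ℂ) * deriv (fun s : ℝ => Ψ (s, z)) t j) := by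
        simp [act, Finset.sum_add_distrib]
      rw [e]
      exact hs
    rw [hder.deriv]
    -- derivative of the new Hamiltonian
    obtain ⟨L, hL, hLw⟩ :=
      orthPath_hasFDerivAt_quad (M' t * (M t).transpose) (act (M t) (Ψ (t, z)))
    have hHd : DifferentiableAt ℝ (fun x : Fin 5 → ℂ => H (t, x)) (Ψ (t, z)) := by
      have hc : ContDiff ℝ (⊤ : ℕ∞) (fun x : Fin 5 → ℂ => H (t, x)) :=
        h.smooth_H.comp (contDiff_const.prodMk contDiff_id)
      exact (hc.differentiable hne) _
    have eback : orthPath_actL (M t).transpose (act (M t) (Ψ (t, z))) = Ψ (t, z) := by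
      rw [orthPath_actL_apply, orthPath_act_act, horth, orthPath_act_one]
    have hcomp : HasFDerivAt (fun x : Fin 5 → ℂ => H (t, act (M t).transpose x))
        ((fderiv ℝ (fun x : Fin 5 → ℂ => H (t, x)) (Ψ (t, z))).comp
          (orthPath_actL (M t).transpose)) (act (M t) (Ψ (t, z))) := by
      have h1 : HasFDerivAt (fun x : Fin 5 → ℂ => H (t, x))
          (fderiv ℝ (fun x : Fin 5 → ℂ => H (t, x)) (Ψ (t, z)))
          (orthPath_actL (M t).transpose (act (M t) (Ψ (t, z)))) := by
        rw [eback]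
        exact hHd.hasFDerivAt
      have h2 := h1.comp (act (M t) (Ψ (t, z))) (orthPath_actL (M t).transpose).hasFDerivAt
      have e : (fun x : Fin 5 → ℂ => H (t, act (M t).transpose x)) =
          (fun x : Fin 5 → ℂ => H (t, x)) ∘ ⇑(orthPath_actL (M t).transpose) := by
        funext x
        simp [orthPath_actL_apply]
      rw [e]
      exact h2
    have hfd : fderiv ℝ (fun x : Fin 5 → ℂ => orthHam M M' H (t, x)) (orthPsi M Ψ (t, z)) =
        L + (fderiv ℝ (fun x : Fin 5 → ℂ => H (t, x)) (Ψ (t, z))).comp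
          (orthPath_actL (M t).transpose) :=
      (hL.add hcomp).fderiv
    rw [hfd]
    simp only [add_apply, ContinuousLinearMap.comp_apply, hLw, orthPath_actL_apply]
    rw [← h.ham t z (act (M t).transpose w)]
    have hskew := orthPath_im_herm_skew (M' t * (M t).transpose) (orthPath_skew M M' hd horth t)
      (act (M t) (Ψ (t, z))) w
    have e1 : act (M' t * (M t).transpose) (act (M t) (Ψ (t, z))) = act (M' t) (Ψ (t, z)) := by
      rw [orthPath_act_act, Matrix.mul_assoc, horth, Matrix.mul_one]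
    rw [hskew, e1, orthPath_herm_add_left, orthPath_herm_act (M t), Complex.add_im]
    ring

theorem ConeCompat.orth {Ψ : ℝ × (Fin 5 → ℂ) → (Fin 5 → ℂ)} {H : ℝ × (Fin 5 → ℂ) → ℝ}
    (h : ConeCompat Ψ H) (M M' : ℝ → Matrix (Fin 5) (Fin 5) ℝ)
    (horth : ∀ t, (M t).transpose * M t = 1) (h0 : M 0 = 1) :
    ConeCompat (orthPsi M Ψ) (orthHam M M' H) := by
  refine ⟨?_, ?_, ?_, ?_, ?_⟩
  · intro t z
    show herm (act (M t) (Ψ (t, z))) (act (M t) (Ψ (t, z))) = herm z z
    rw [orthPath_herm_orth (M t) (horth t), h.herm_eq]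
  · intro t z
    show ∑ j, act (M t) (Ψ (t, z)) j ^ 2 = ∑ j, z j ^ 2
    rw [orthPath_quad_orth (M t) (horth t), h.quad_eq]
  · intro t z c hc
    show act (M t) (Ψ (t, c • z)) = c • act (M t) (Ψ (t, z))
    rw [h.smul_eq t z c hc, orthPath_act_smul]
  · intro z
    show act (M 0) (Ψ (0, z)) = z
    rw [h0, orthPath_act_one, h.start]
  · intro t z c hc
    show (herm (act (M' t * (M t).transpose) (c • z)) (c • z)).im +
        H (t, act (M t).transpose (c • z)) =
      (herm (act (M' t * (M t).transpose) z) z).im + H (t, act (M t).transpose z)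
    have hcc : starRingEnd ℂ c * c = 1 := by
      rw [mul_comm, Complex.mul_conj, Complex.normSq_eq_norm_sq, hc]
      simp
    rw [orthPath_act_smul, orthPath_herm_smul, hcc, one_mul, orthPath_act_smul, h.inv t _ c hc]

end Crest.Agent.S0316
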