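import Crest.Agent.S0316.Defs

set_option autoImplicit false

/-!
# S0316 / Paths: the two matrix paths `Lp`, `Rpi` and the time-one map
-/

open Complex

namespace Crest.Agent.S0316

open Crest.GeometryTopology.Quadric

theorem Paths_den_ne (t : ℝ) : (8 + t ^ 2 : ℝ) ≠ 0 := by positivity

theorem Lp_smooth (i j : Fin 5) : ContDiff ℝ (⊤ : ℕ∞) (fun t => Lp t i j) := by
  have h : ∀ t : ℝ, (8 + t ^ 2 : ℝ) ≠ 0 := Paths_den_ne
  fin_cases i <;> fin_cases j <;> simp [Lp] <;> fun_prop (disch := exact h)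

theorem Lp'_smooth (i j : Fin 5) : ContDiff ℝ (⊤ : ℕ∞) (fun t => Lp' t i j) := by
  have h : ∀ t : ℝ, ((8 + t ^ 2) ^ 2 : ℝ) ≠ 0 := fun t => pow_ne_zero 2 (Paths_den_ne t)
  fin_cases i <;> fin_cases j <;> simp [Lp'] <;> fun_prop (disch := exact h)

theorem Paths_hasDerivAt_sq (t : ℝ) : HasDerivAt (fun s : ℝ => s ^ 2) (2 * t) t := by
  have h := hasDerivAt_pow 2 t
  exact h.congr_deriv (by norm_num)

theorem Paths_hasDerivAt_den (t : ℝ) : HasDerivAt (fun s : ℝ => 8 + s ^ 2) (2 * t) t :=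
  (Paths_hasDerivAt_sq t).const_add 8

theorem Paths_hasDerivAt_a (t : ℝ) :
    HasDerivAt (fun s : ℝ => s / (8 + s ^ 2)) ((8 - t ^ 2) / (8 + t ^ 2) ^ 2) t := by
  have h8 : (8 + t ^ 2 : ℝ) ≠ 0 := Paths_den_ne t
  have h := (hasDerivAt_id' t).div (Paths_hasDerivAt_den t) h8
  exact h.congr_deriv (by field_simp; ring)

theorem Paths_hasDerivAt_b (t : ℝ) :
    HasDerivAt (fun s : ℝ => s ^ 2 / (8 + s ^ 2)) (16 * t / (8 + t ^ 2) ^ 2) t := by
  have h8 : (8 + t ^ 2 : ℝ) ≠ 0 := Paths_den_ne t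
  have h := (Paths_hasDerivAt_sq t).div (Paths_hasDerivAt_den t) h8
  exact h.congr_deriv (by field_simp; ring)

theorem Lp_hasDerivAt (t : ℝ) (i j : Fin 5) : HasDerivAt (fun s => Lp s i j) (Lp' t i j) t := by
  have h8 : (8 + t ^ 2 : ℝ) ≠ 0 := Paths_den_ne t
  have ha := Paths_hasDerivAt_a t
  have hb := Paths_hasDerivAt_b t
  have e1 : HasDerivAt (fun s : ℝ => 1 - 2 * s ^ 2 / (8 + s ^ 2)) (-32 * t / (8 + t ^ 2) ^ 2) t := by
    have h := (hb.const_mul 2).const_sub 1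
    have hf : (fun s : ℝ => 1 - 2 * s ^ 2 / (8 + s ^ 2)) =
        (fun x : ℝ => 1 - 2 * (x ^ 2 / (8 + x ^ 2))) := by
      funext s; ring
    rw [hf]
    exact h.congr_deriv (by ring)
  have e2 : HasDerivAt (fun s : ℝ => -4 * s / (8 + s ^ 2))
      (-(32 - 4 * t ^ 2) / (8 + t ^ 2) ^ 2) t := by
    have h := ha.const_mul (-4)
    have hf : (fun s : ℝ => -4 * s / (8 + s ^ 2)) = (fun x : ℝ => -4 * (x / (8 + x ^ 2))) := by
      funext s; ring
    rw [hf]
    exact h.congr_deriv (by ring)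
  have e3 : HasDerivAt (fun s : ℝ => 4 * s / (8 + s ^ 2))
      ((32 - 4 * t ^ 2) / (8 + t ^ 2) ^ 2) t := by
    have h := ha.const_mul 4
    have hf : (fun s : ℝ => 4 * s / (8 + s ^ 2)) = (fun x : ℝ => 4 * (x / (8 + x ^ 2))) := by
      funext s; ring
    rw [hf]
    exact h.congr_deriv (by ring)
  have e4 : HasDerivAt (fun s : ℝ => 1 - s ^ 2 / (8 + s ^ 2)) (-16 * t / (8 + t ^ 2) ^ 2) t := by
    have h := hb.const_sub 1
    exact h.congr_deriv (by ring)
  have e5 : HasDerivAt (fun s : ℝ => -s ^ 2 / (8 + s ^ 2)) (-16 * t / (8 + t ^ 2) ^ 2) t := by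
    have h := hb.neg
    have hf : (fun s : ℝ => -s ^ 2 / (8 + s ^ 2)) = (fun x : ℝ => -(x ^ 2 / (8 + x ^ 2))) := by
      funext s; ring
    rw [hf]
    exact h.congr_deriv (by ring)
  have e0 : HasDerivAt (fun _ : ℝ => (0 : ℝ)) 0 t := hasDerivAt_const t 0
  have e6 : HasDerivAt (fun _ : ℝ => (1 : ℝ)) 0 t := hasDerivAt_const t 1
  fin_cases i <;> fin_cases j <;>
    first
      | exact e1 | exact e2 | exact e3 | exact e4 | exact e5 | exact e0 | exact e6

theorem Lp_orth (t : ℝ) : (Lp t).transpose * Lp t = 1 := by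
  have h8 : (8 + t ^ 2 : ℝ) ≠ 0 := Paths_den_ne t
  ext i j
  fin_cases i <;> fin_cases j <;>
    simp [Lp, Matrix.mul_apply, Fin.sum_univ_five, Matrix.transpose_apply] <;>
    field_simp <;> ring

theorem Lp_zero : Lp 0 = 1 := by
  ext i j
  fin_cases i <;> fin_cases j <;> simp [Lp]

theorem Rpi_smooth (i j : Fin 5) : ContDiff ℝ (⊤ : ℕ∞) (fun t => Rpi t i j) := by
  fin_cases i <;> fin_cases j <;> simp [Rpi] <;> fun_prop

theorem Rpi'_smooth (i j : Fin 5) : ContDiff ℝ (⊤ : ℕ∞) (fun t => Rpi' t i j) := by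
  fin_cases i <;> fin_cases j <;> simp [Rpi'] <;> fun_prop

theorem Rpi_hasDerivAt (t : ℝ) (i j : Fin 5) :
    HasDerivAt (fun s => Rpi s i j) (Rpi' t i j) t := by
  have hlin : HasDerivAt (fun s : ℝ => Real.pi * s) Real.pi t := by
    have h := (hasDerivAt_id' t).const_mul Real.pi
    exact h.congr_deriv (by ring)
  have hc : HasDerivAt (fun s : ℝ => Real.cos (Real.pi * s))
      (-(Real.pi * Real.sin (Real.pi * t))) t := by
    have h := hlin.cos
    exact h.congr_deriv (by ring)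
  have hs : HasDerivAt (fun s : ℝ => Real.sin (Real.pi * s))
      (Real.pi * Real.cos (Real.pi * t)) t := by
    have h := hlin.sin
    exact h.congr_deriv (by ring)
  have hns : HasDerivAt (fun s : ℝ => -Real.sin (Real.pi * s))
      (-(Real.pi * Real.cos (Real.pi * t))) t := hs.neg
  have e0 : HasDerivAt (fun _ : ℝ => (0 : ℝ)) 0 t := hasDerivAt_const t 0
  have e6 : HasDerivAt (fun _ : ℝ => (1 : ℝ)) 0 t := hasDerivAt_const t 1
  fin_cases i <;> fin_cases j <;>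
    first
      | exact hc | exact hs | exact hns | exact e0 | exact e6

theorem Rpi_orth (t : ℝ) : (Rpi t).transpose * Rpi t = 1 := by
  have hcs := Real.cos_sq_add_sin_sq (Real.pi * t)
  ext i j
  fin_cases i <;> fin_cases j <;>
    simp [Rpi, Matrix.mul_apply, Fin.sum_univ_five, Matrix.transpose_apply] <;>
    nlinarith [hcs]

theorem Rpi_zero : Rpi 0 = 1 := by
  ext i j
  fin_cases i <;> fin_cases j <;> simp [Rpi]

/-- the time-one map of the isotopy -/
theorem Psi_one (z : Fin 5 → ℂ) : Psi (1, z) = Phi1 z := by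
  ext i
  fin_cases i <;>
    simp [Psi, orthPsi, act, Fin.sum_univ_five, Rpi, Lp, Psi0, Phi1, tw] <;>
    norm_num <;> ring

end Crest.Agent.S0316
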