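import Crest.Agent.S0316.Defs

set_option autoImplicit false

/-!
# S0316 / TwistBasic: algebraic identities of the Cayley twist `tw`
-/

open Complex

namespace Crest.Agent.S0316

open Crest.GeometryTopology.Quadric

/-- Cauchy–Schwarz: `|q| ≤ N`. -/
theorem mu_nonneg (z : Fin 5 → ℂ) : 0 ≤ mu z := by
  have key : mu z = 4 * (((z 0).re * (z 1).im - (z 1).re * (z 0).im) ^ 2
      + ((z 1).re * (z 2).im - (z 2).re * (z 1).im) ^ 2
      + ((z 0).re * (z 2).im - (z 2).re * (z 0).im) ^ 2) := by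
    simp only [mu, nrm3, quad3, Complex.normSq_apply, Complex.add_re, Complex.add_im, pow_two,
      Complex.mul_re, Complex.mul_im]
    ring
  rw [key]
  positivity

theorem TwistBasic_nrm3_cast (z : Fin 5 → ℂ) :
    ((nrm3 z : ℝ) : ℂ) = (starRingEnd ℂ) (z 0) * z 0 + (starRingEnd ℂ) (z 1) * z 1
      + (starRingEnd ℂ) (z 2) * z 2 := by
  simp only [nrm3, Complex.ofReal_add, Complex.normSq_eq_conj_mul_self]

theorem TwistBasic_mu_cast (z : Fin 5 → ℂ) :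
    ((mu z : ℝ) : ℂ) = ((nrm3 z : ℝ) : ℂ) ^ 2
      - ((starRingEnd ℂ) (z 0) ^ 2 + (starRingEnd ℂ) (z 1) ^ 2 + (starRingEnd ℂ) (z 2) ^ 2)
        * (z 0 ^ 2 + z 1 ^ 2 + z 2 ^ 2) := by
  simp only [mu, quad3, Complex.ofReal_sub, Complex.ofReal_pow, Complex.normSq_eq_conj_mul_self,
    map_add, map_pow]

theorem TwistBasic_den_pos (τ : ℝ) (z : Fin 5 → ℂ) : 0 < 1 + τ ^ 2 * mu z := by
  have := mu_nonneg z
  positivity

theorem TwistBasic_den_ne (τ : ℝ) (z : Fin 5 → ℂ) :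
    (1 + (τ : ℂ) ^ 2 * ((mu z : ℝ) : ℂ)) ≠ 0 := by
  have h := (TwistBasic_den_pos τ z).ne'
  have h' : ((1 + τ ^ 2 * mu z : ℝ) : ℂ) ≠ 0 := by exact_mod_cast h
  simpa using h'

/-- `twc · D = numerator` (casts pushed, `quad3` unfolded) -/
theorem TwistBasic_twc_mul (τ : ℝ) (z : Fin 5 → ℂ) (v : ℂ) :
    twc τ z v * (1 + (τ : ℂ) ^ 2 * ((mu z : ℝ) : ℂ))
      = ((1 - (τ : ℂ) ^ 2 * ((mu z : ℝ) : ℂ)) - 2 * I * ((τ : ℂ) * ((nrm3 z : ℝ) : ℂ))) * v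
        + 2 * I * (τ : ℂ) * (z 0 ^ 2 + z 1 ^ 2 + z 2 ^ 2) * (starRingEnd ℂ) v := by
  have hD := TwistBasic_den_ne τ z
  unfold twc quad3
  push_cast
  exact div_mul_cancel₀ _ hD

/-- the conjugate version -/
theorem TwistBasic_conj_twc_mul (τ : ℝ) (z : Fin 5 → ℂ) (v : ℂ) :
    (starRingEnd ℂ) (twc τ z v) * (1 + (τ : ℂ) ^ 2 * ((mu z : ℝ) : ℂ))
      = ((1 - (τ : ℂ) ^ 2 * ((mu z : ℝ) : ℂ)) + 2 * I * ((τ : ℂ) * ((nrm3 z : ℝ) : ℂ)))
          * (starRingEnd ℂ) v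
        - 2 * I * (τ : ℂ) * ((starRingEnd ℂ) (z 0) ^ 2 + (starRingEnd ℂ) (z 1) ^ 2
            + (starRingEnd ℂ) (z 2) ^ 2) * v := by
  have h := congrArg (starRingEnd ℂ) (TwistBasic_twc_mul τ z v)
  simp only [map_mul, map_add, map_sub, map_pow, map_one, Complex.conj_ofReal, Complex.conj_I,
    Complex.conj_conj, map_ofNat] at h
  rw [h]
  ring

theorem TwistBasic_tw_0 (τ : ℝ) (z : Fin 5 → ℂ) : tw τ z 0 = twc τ z (z 0) := rfl
theorem TwistBasic_tw_1 (τ : ℝ) (z : Fin 5 → ℂ) : tw τ z 1 = twc τ z (z 1) := rfl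
theorem TwistBasic_tw_2 (τ : ℝ) (z : Fin 5 → ℂ) : tw τ z 2 = twc τ z (z 2) := rfl
theorem TwistBasic_tw_3 (τ : ℝ) (z : Fin 5 → ℂ) : tw τ z 3 = z 3 := rfl
theorem TwistBasic_tw_4 (τ : ℝ) (z : Fin 5 → ℂ) : tw τ z 4 = z 4 := rfl

theorem TwistBasic_nrm3_tw_cast (τ : ℝ) (z : Fin 5 → ℂ) :
    (starRingEnd ℂ) (twc τ z (z 0)) * twc τ z (z 0)
      + (starRingEnd ℂ) (twc τ z (z 1)) * twc τ z (z 1)
      + (starRingEnd ℂ) (twc τ z (z 2)) * twc τ z (z 2) = ((nrm3 z : ℝ) : ℂ) := by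
  have hD := TwistBasic_den_ne τ z
  have hD2 : (1 + (τ : ℂ) ^ 2 * ((mu z : ℝ) : ℂ)) ^ 2 ≠ 0 := pow_ne_zero 2 hD
  have e0 := TwistBasic_twc_mul τ z (z 0)
  have e1 := TwistBasic_twc_mul τ z (z 1)
  have e2 := TwistBasic_twc_mul τ z (z 2)
  have f0 := TwistBasic_conj_twc_mul τ z (z 0)
  have f1 := TwistBasic_conj_twc_mul τ z (z 1)
  have f2 := TwistBasic_conj_twc_mul τ z (z 2)
  have hN := TwistBasic_nrm3_cast z
  have hμ := TwistBasic_mu_cast z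
  apply mul_right_cancel₀ hD2
  generalize twc τ z (z 0) = T0 at *
  generalize twc τ z (z 1) = T1 at *
  generalize twc τ z (z 2) = T2 at *
  generalize (starRingEnd ℂ) T0 = S0 at *
  generalize (starRingEnd ℂ) T1 = S1 at *
  generalize (starRingEnd ℂ) T2 = S2 at *
  generalize ((mu z : ℝ) : ℂ) = M at *
  generalize ((nrm3 z : ℝ) : ℂ) = N at *
  generalize (starRingEnd ℂ) (z 0) = w0 at *
  generalize (starRingEnd ℂ) (z 1) = w1 at *
  generalize (starRingEnd ℂ) (z 2) = w2 at *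
  generalize z 0 = v0 at *
  generalize z 1 = v1 at *
  generalize z 2 = v2 at *
  generalize (τ : ℂ) = t at *
  linear_combination (norm := skip)
    (T0 * (1 + t ^ 2 * M)) * f0
    + (((1 - t ^ 2 * M) + 2 * I * (t * N)) * w0 - 2 * I * t * (w0 ^ 2 + w1 ^ 2 + w2 ^ 2) * v0) * e0
    + (T1 * (1 + t ^ 2 * M)) * f1
    + (((1 - t ^ 2 * M) + 2 * I * (t * N)) * w1 - 2 * I * t * (w0 ^ 2 + w1 ^ 2 + w2 ^ 2) * v1) * e1
    + (T2 * (1 + t ^ 2 * M)) * f2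
    + (((1 - t ^ 2 * M) + 2 * I * (t * N)) * w2 - 2 * I * t * (w0 ^ 2 + w1 ^ 2 + w2 ^ 2) * v2) * e2
    - ((1 - t ^ 2 * M) ^ 2 + 4 * t ^ 2 * N ^ 2
        + 4 * t ^ 2 * (w0 ^ 2 + w1 ^ 2 + w2 ^ 2) * (v0 ^ 2 + v1 ^ 2 + v2 ^ 2)) * hN
    - 4 * t ^ 2 * N * hμ
  ring_nf
  simp only [Complex.I_sq]
  ring

theorem nrm3_tw (τ : ℝ) (z : Fin 5 → ℂ) : nrm3 (tw τ z) = nrm3 z := by
  have h := TwistBasic_nrm3_cast (tw τ z)
  rw [TwistBasic_tw_0, TwistBasic_tw_1, TwistBasic_tw_2, TwistBasic_nrm3_tw_cast] at h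
  exact_mod_cast h

theorem quad3_tw (τ : ℝ) (z : Fin 5 → ℂ) : quad3 (tw τ z) = quad3 z := by
  have hD := TwistBasic_den_ne τ z
  have hD2 : (1 + (τ : ℂ) ^ 2 * ((mu z : ℝ) : ℂ)) ^ 2 ≠ 0 := pow_ne_zero 2 hD
  have e0 := TwistBasic_twc_mul τ z (z 0)
  have e1 := TwistBasic_twc_mul τ z (z 1)
  have e2 := TwistBasic_twc_mul τ z (z 2)
  have hN := TwistBasic_nrm3_cast z
  have hμ := TwistBasic_mu_cast z
  unfold quad3
  rw [TwistBasic_tw_0, TwistBasic_tw_1, TwistBasic_tw_2]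
  apply mul_right_cancel₀ hD2
  generalize twc τ z (z 0) = T0 at *
  generalize twc τ z (z 1) = T1 at *
  generalize twc τ z (z 2) = T2 at *
  generalize ((mu z : ℝ) : ℂ) = M at *
  generalize ((nrm3 z : ℝ) : ℂ) = N at *
  generalize (starRingEnd ℂ) (z 0) = w0 at *
  generalize (starRingEnd ℂ) (z 1) = w1 at *
  generalize (starRingEnd ℂ) (z 2) = w2 at *
  generalize z 0 = v0 at *
  generalize z 1 = v1 at *
  generalize z 2 = v2 at *
  generalize (τ : ℂ) = t at *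
  linear_combination (norm := skip)
    (T0 * (1 + t ^ 2 * M) + (((1 - t ^ 2 * M) - 2 * I * (t * N)) * v0
        + 2 * I * t * (v0 ^ 2 + v1 ^ 2 + v2 ^ 2) * w0)) * e0
    + (T1 * (1 + t ^ 2 * M) + (((1 - t ^ 2 * M) - 2 * I * (t * N)) * v1
        + 2 * I * t * (v0 ^ 2 + v1 ^ 2 + v2 ^ 2) * w1)) * e1
    + (T2 * (1 + t ^ 2 * M) + (((1 - t ^ 2 * M) - 2 * I * (t * N)) * v2
        + 2 * I * t * (v0 ^ 2 + v1 ^ 2 + v2 ^ 2) * w2)) * e2
    - (v0 ^ 2 + v1 ^ 2 + v2 ^ 2) * (4 * I * t * (1 - t ^ 2 * M) + 8 * t ^ 2 * N) * hN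
    - 4 * t ^ 2 * (v0 ^ 2 + v1 ^ 2 + v2 ^ 2) * hμ
  ring_nf
  simp only [Complex.I_sq]
  ring

theorem mu_tw (τ : ℝ) (z : Fin 5 → ℂ) : mu (tw τ z) = mu z := by
  unfold mu
  rw [nrm3_tw, quad3_tw]

theorem tw_zero (z : Fin 5 → ℂ) : tw 0 z = z := by
  funext i
  fin_cases i <;> simp [tw, twc]

theorem TwistBasic_normSq_one (c : ℂ) (hc : ‖c‖ = 1) : Complex.normSq c = 1 := by
  rw [Complex.normSq_eq_norm_sq, hc]; norm_num

theorem nrm3_smul (z : Fin 5 → ℂ) (c : ℂ) (hc : ‖c‖ = 1) : nrm3 (c • z) = nrm3 z := by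
  have h := TwistBasic_normSq_one c hc
  simp only [nrm3, Pi.smul_apply, smul_eq_mul, Complex.normSq_mul, h, one_mul]

theorem TwistBasic_quad3_smul (z : Fin 5 → ℂ) (c : ℂ) : quad3 (c • z) = c ^ 2 * quad3 z := by
  simp only [quad3, Pi.smul_apply, smul_eq_mul]
  ring

theorem mu_smul (z : Fin 5 → ℂ) (c : ℂ) (hc : ‖c‖ = 1) : mu (c • z) = mu z := by
  have h := TwistBasic_normSq_one c hc
  unfold mu
  rw [nrm3_smul z c hc, TwistBasic_quad3_smul, Complex.normSq_mul, map_pow, h]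
  ring

theorem TwistBasic_twc_smul (τ : ℝ) (z : Fin 5 → ℂ) (c : ℂ) (hc : ‖c‖ = 1) (v : ℂ) :
    twc τ (c • z) (c * v) = c * twc τ z v := by
  have h := TwistBasic_normSq_one c hc
  have hcc : c * (starRingEnd ℂ) c = 1 := by
    rw [Complex.mul_conj, h]; norm_num
  unfold twc
  rw [nrm3_smul z c hc, mu_smul z c hc, TwistBasic_quad3_smul, map_mul, ← mul_div_assoc]
  congr 1
  linear_combination (2 * I * ((τ : ℝ) : ℂ) * quad3 z * (starRingEnd ℂ) v * c) * hcc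

theorem tw_smul (τ : ℝ) (z : Fin 5 → ℂ) (c : ℂ) (hc : ‖c‖ = 1) :
    tw τ (c • z) = c • tw τ z := by
  funext i
  fin_cases i
  · exact TwistBasic_twc_smul τ z c hc (z 0)
  · exact TwistBasic_twc_smul τ z c hc (z 1)
  · exact TwistBasic_twc_smul τ z c hc (z 2)
  · rfl
  · rfl

/-- antisymmetrised product of two twisted coordinates -/
theorem TwistBasic_pluck (τ : ℝ) (z : Fin 5 → ℂ) (a b : ℂ) :
    (starRingEnd ℂ) (twc τ z a) * twc τ z b - twc τ z a * (starRingEnd ℂ) (twc τ z b)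
      = (starRingEnd ℂ) a * b - a * (starRingEnd ℂ) b := by
  have hD := TwistBasic_den_ne τ z
  have hD2 : (1 + (τ : ℂ) ^ 2 * ((mu z : ℝ) : ℂ)) ^ 2 ≠ 0 := pow_ne_zero 2 hD
  have e0 := TwistBasic_twc_mul τ z a
  have e1 := TwistBasic_twc_mul τ z b
  have f0 := TwistBasic_conj_twc_mul τ z a
  have f1 := TwistBasic_conj_twc_mul τ z b
  have hμ := TwistBasic_mu_cast z
  apply mul_right_cancel₀ hD2
  generalize twc τ z a = T0 at *
  generalize twc τ z b = T1 at *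
  generalize (starRingEnd ℂ) T0 = S0 at *
  generalize (starRingEnd ℂ) T1 = S1 at *
  generalize ((mu z : ℝ) : ℂ) = M at *
  generalize ((nrm3 z : ℝ) : ℂ) = N at *
  generalize (starRingEnd ℂ) (z 0) = w0 at *
  generalize (starRingEnd ℂ) (z 1) = w1 at *
  generalize (starRingEnd ℂ) (z 2) = w2 at *
  generalize z 0 = v0 at *
  generalize z 1 = v1 at *
  generalize z 2 = v2 at *
  generalize (starRingEnd ℂ) a = a' at *
  generalize (starRingEnd ℂ) b = b' at *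
  generalize (τ : ℂ) = t at *
  linear_combination (norm := skip)
    (T1 * (1 + t ^ 2 * M)) * f0
    + (((1 - t ^ 2 * M) + 2 * I * (t * N)) * a' - 2 * I * t * (w0 ^ 2 + w1 ^ 2 + w2 ^ 2) * a) * e1
    - (S1 * (1 + t ^ 2 * M)) * e0
    - (((1 - t ^ 2 * M) - 2 * I * (t * N)) * a + 2 * I * t * (v0 ^ 2 + v1 ^ 2 + v2 ^ 2) * a') * f1
    - 4 * t ^ 2 * (a' * b - a * b') * hμ
  ring_nf
  simp only [Complex.I_sq]
  ring

theorem TwistBasic_pluck_im (τ : ℝ) (z : Fin 5 → ℂ) (a b : ℂ) :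
    ((starRingEnd ℂ) (twc τ z a) * twc τ z b).im = ((starRingEnd ℂ) a * b).im := by
  have h := congrArg Complex.im (TwistBasic_pluck τ z a b)
  simp only [Complex.sub_im, Complex.mul_im, Complex.conj_re, Complex.conj_im] at h ⊢
  linarith

/-- invariance of the moment map (Plücker coordinates of the first three coordinates) -/
theorem pluck_tw_01 (τ : ℝ) (z : Fin 5 → ℂ) :
    ((starRingEnd ℂ) (tw τ z 0) * tw τ z 1).im = ((starRingEnd ℂ) (z 0) * z 1).im :=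
  TwistBasic_pluck_im τ z (z 0) (z 1)

theorem pluck_tw_12 (τ : ℝ) (z : Fin 5 → ℂ) :
    ((starRingEnd ℂ) (tw τ z 1) * tw τ z 2).im = ((starRingEnd ℂ) (z 1) * z 2).im :=
  TwistBasic_pluck_im τ z (z 1) (z 2)

theorem pluck_tw_02 (τ : ℝ) (z : Fin 5 → ℂ) :
    ((starRingEnd ℂ) (tw τ z 0) * tw τ z 2).im = ((starRingEnd ℂ) (z 0) * z 2).im :=
  TwistBasic_pluck_im τ z (z 0) (z 2)

theorem herm_tw (τ : ℝ) (z : Fin 5 → ℂ) : herm (tw τ z) (tw τ z) = herm z z := by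
  have h := TwistBasic_nrm3_tw_cast τ z
  have hN := TwistBasic_nrm3_cast z
  simp only [herm, Fin.sum_univ_five, TwistBasic_tw_0, TwistBasic_tw_1, TwistBasic_tw_2,
    TwistBasic_tw_3, TwistBasic_tw_4]
  linear_combination h + hN

theorem sumsq_tw (τ : ℝ) (z : Fin 5 → ℂ) : ∑ j, tw τ z j ^ 2 = ∑ j, z j ^ 2 := by
  have h := quad3_tw τ z
  simp only [quad3, TwistBasic_tw_0, TwistBasic_tw_1, TwistBasic_tw_2] at h
  simp only [Fin.sum_univ_five, TwistBasic_tw_0, TwistBasic_tw_1, TwistBasic_tw_2,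
    TwistBasic_tw_3, TwistBasic_tw_4]
  linear_combination h

theorem coneCompat0 : ConeCompat Psi0 H0 where
  herm_eq t z := herm_tw (gc * t) z
  quad_eq t z := sumsq_tw (gc * t) z
  smul_eq t z c hc := tw_smul (gc * t) z c hc
  start z := by
    show tw (gc * 0) z = z
    rw [mul_zero, tw_zero]
  inv t z c hc := by
    show gc * mu (c • z) * ell (t ^ 2 * gc ^ 2 * mu (c • z))
      = gc * mu z * ell (t ^ 2 * gc ^ 2 * mu z)
    rw [mu_smul z c hc]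

end Crest.Agent.S0316
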