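import Crest.Agent.S0316.Defs

set_option autoImplicit false

/-!
# S0316 / Ell: the function `ell x = log (1 + x) / x` (value `1` at `0`)

`ell` is smooth on `(-1, ∞)` (at `0` e.g. via `dslope` of the analytic function
`y ↦ log (1 + y)`, or via `ell x = ∫₀¹ 1 / (1 + s x) ds`), and `y ↦ y * ell (a * y)` is an
antiderivative of `1 / (1 + a y)`.
-/

namespace Crest.Agent.S0316

/-- `ell` is the `dslope` at `0` of `x ↦ log (1 + x)`. -/
theorem ell_eq_dslope : ell = dslope (fun x : ℝ => Real.log (1 + x)) 0 := by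
  funext x
  unfold ell
  split_ifs with h
  · subst h
    rw [dslope_same]
    have h1 : HasDerivAt (fun x : ℝ => Real.log (1 + x)) 1 0 := by
      have h2 := ((hasDerivAt_id (0 : ℝ)).const_add 1).log (by norm_num)
      simpa using h2
    exact h1.deriv.symm
  · rw [dslope_of_ne _ h, slope]
    simp
    ring

theorem mul_ell (y : ℝ) : y * ell y = Real.log (1 + y) := by
  have h := sub_smul_dslope (fun x : ℝ => Real.log (1 + x)) 0 y
  rw [ell_eq_dslope]
  simpa using h

theorem ell_zero : ell 0 = 1 := by
  simp [ell]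

/-- `ell` is smooth at every `x > -1`. -/
theorem ell_contDiffAt (x : ℝ) (hx : -1 < x) : ContDiffAt ℝ (⊤ : ℕ∞) ell x := by
  rcases eq_or_ne x 0 with rfl | hx0
  · have hlog : AnalyticAt ℝ (fun x : ℝ => Real.log (1 + x)) 0 := by
      have h1 : AnalyticAt ℝ Real.log ((fun x : ℝ => 1 + x) 0) := analyticAt_log (by norm_num)
      exact h1.comp (analyticAt_const.add analyticAt_id)
    obtain ⟨p, hp⟩ := hlog
    rw [ell_eq_dslope]
    exact (hp.has_fpower_series_dslope_fslope).analyticAt.contDiffAt
  · have hev : ell =ᶠ[nhds x] fun y => Real.log (1 + y) / y := by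
      filter_upwards [isOpen_ne.mem_nhds hx0] with y hy
      simp [ell, hy]
    refine ContDiffAt.congr_of_eventuallyEq ?_ hev
    have hx' : (1 : ℝ) + x ≠ 0 := by linarith
    have h1 : ContDiffAt ℝ ((⊤ : ℕ∞) : WithTop ℕ∞) (fun y : ℝ => Real.log (1 + y)) x :=
      (contDiffAt_const.add contDiffAt_id).log hx'
    exact h1.div contDiffAt_id hx0

/-- derivative of `y ↦ y * ell (a * y)` is `1 / (1 + a y)`, for `a y > -1`. -/
theorem hasDerivAt_mul_ell (a y : ℝ) (h : -1 < a * y) :
    HasDerivAt (fun y : ℝ => y * ell (a * y)) (1 / (1 + a * y)) y := by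
  rcases eq_or_ne a 0 with rfl | ha
  · simpa [ell_zero] using hasDerivAt_id' y
  · have hf : (fun u : ℝ => u * ell (a * u)) = fun u => Real.log (1 + a * u) / a := by
      funext u
      rw [← mul_ell (a * u)]
      field_simp
    rw [hf]
    have h1 : HasDerivAt (fun u : ℝ => 1 + a * u) a y := by
      simpa using ((hasDerivAt_id y).const_mul a).const_add 1
    have hne : (1 : ℝ) + a * y ≠ 0 := by linarith
    have h2 := (h1.log hne).div_const a
    refine h2.congr_deriv ?_
    field_simp

end Crest.Agent.S0316
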