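import Crest.Agent.S0316.Defs
import Crest.Agent.S0316.TwistBasic
import Crest.Agent.S0316.Ell

set_option autoImplicit false

/-!
# S0316 / TwistSmooth: smoothness of the twist isotopy `Psi0` and of its Hamiltonian `H0`
-/

open Complex

namespace Crest.Agent.S0316

open Crest.GeometryTopology.Quadric

theorem TwistSmooth_normSq_contDiff : ContDiff ℝ (⊤ : ℕ∞) (fun w : ℂ => Complex.normSq w) := by
  have hre : ContDiff ℝ (⊤ : ℕ∞) (fun w : ℂ => w.re) := Complex.reCLM.contDiff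
  have him : ContDiff ℝ (⊤ : ℕ∞) (fun w : ℂ => w.im) := Complex.imCLM.contDiff
  simp only [Complex.normSq_apply]
  exact (hre.mul hre).add (him.mul him)

theorem nrm3_contDiff : ContDiff ℝ (⊤ : ℕ∞) nrm3 := by
  have h : ∀ i : Fin 5, ContDiff ℝ (⊤ : ℕ∞) (fun z : Fin 5 → ℂ => Complex.normSq (z i)) :=
    fun i => TwistSmooth_normSq_contDiff.comp (contDiff_apply ℝ ℂ i)
  exact ((h 0).add (h 1)).add (h 2)

theorem quad3_contDiff : ContDiff ℝ (⊤ : ℕ∞) quad3 := by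
  have h : ∀ i : Fin 5, ContDiff ℝ (⊤ : ℕ∞) (fun z : Fin 5 → ℂ => z i ^ 2) :=
    fun i => (contDiff_apply ℝ ℂ i).pow 2
  exact ((h 0).add (h 1)).add (h 2)

theorem mu_contDiff : ContDiff ℝ (⊤ : ℕ∞) mu :=
  (nrm3_contDiff.pow 2).sub (TwistSmooth_normSq_contDiff.comp quad3_contDiff)

theorem TwistSmooth_twc_contDiff (i : Fin 5) :
    ContDiff ℝ (⊤ : ℕ∞) (fun p : ℝ × (Fin 5 → ℂ) => twc (gc * p.1) p.2 (p.2 i)) := by
  have hτ : ContDiff ℝ (⊤ : ℕ∞) (fun p : ℝ × (Fin 5 → ℂ) => gc * p.1) :=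
    contDiff_const.mul contDiff_fst
  have hz : ContDiff ℝ (⊤ : ℕ∞) (fun p : ℝ × (Fin 5 → ℂ) => p.2) := contDiff_snd
  have hμ : ContDiff ℝ (⊤ : ℕ∞) (fun p : ℝ × (Fin 5 → ℂ) => mu p.2) := mu_contDiff.comp hz
  have hN : ContDiff ℝ (⊤ : ℕ∞) (fun p : ℝ × (Fin 5 → ℂ) => nrm3 p.2) := nrm3_contDiff.comp hz
  have hq : ContDiff ℝ (⊤ : ℕ∞) (fun p : ℝ × (Fin 5 → ℂ) => quad3 p.2) :=
    quad3_contDiff.comp hz
  have hv : ContDiff ℝ (⊤ : ℕ∞) (fun p : ℝ × (Fin 5 → ℂ) => p.2 i) :=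
    (contDiff_apply ℝ ℂ i).comp hz
  have hcv : ContDiff ℝ (⊤ : ℕ∞) (fun p : ℝ × (Fin 5 → ℂ) => (starRingEnd ℂ) (p.2 i)) :=
    Complex.conjCLE.contDiff.comp hv
  have hofReal : ∀ f : ℝ × (Fin 5 → ℂ) → ℝ, ContDiff ℝ (⊤ : ℕ∞) f →
      ContDiff ℝ (⊤ : ℕ∞) (fun p => ((f p : ℝ) : ℂ)) :=
    fun f hf => Complex.ofRealCLM.contDiff.comp hf
  unfold twc
  simp only [div_eq_mul_inv]
  apply ContDiff.mul
  · apply ContDiff.add
    · apply ContDiff.mul _ hv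
      apply ContDiff.sub
      · exact hofReal _ (contDiff_const.sub ((hτ.pow 2).mul hμ))
      · exact contDiff_const.mul (hofReal _ (hτ.mul hN))
    · exact ((contDiff_const.mul (hofReal _ hτ)).mul hq).mul hcv
  · apply ContDiff.inv
    · exact hofReal _ (contDiff_const.add ((hτ.pow 2).mul hμ))
    · intro p
      have := mu_nonneg p.2
      have h1 : 0 < 1 + (gc * p.1) ^ 2 * mu p.2 := by positivity
      exact Complex.ofReal_ne_zero.mpr h1.ne'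

theorem Psi0_smooth : ContDiff ℝ (⊤ : ℕ∞) Psi0 := by
  rw [contDiff_pi]
  intro i
  fin_cases i
  · exact TwistSmooth_twc_contDiff 0
  · exact TwistSmooth_twc_contDiff 1
  · exact TwistSmooth_twc_contDiff 2
  · show ContDiff ℝ (⊤ : ℕ∞) (fun p : ℝ × (Fin 5 → ℂ) => p.2 3)
    exact (contDiff_apply ℝ ℂ (3 : Fin 5)).comp contDiff_snd
  · show ContDiff ℝ (⊤ : ℕ∞) (fun p : ℝ × (Fin 5 → ℂ) => p.2 4)
    exact (contDiff_apply ℝ ℂ (4 : Fin 5)).comp contDiff_snd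

theorem H0_smooth : ContDiff ℝ (⊤ : ℕ∞) H0 := by
  have hz : ContDiff ℝ (⊤ : ℕ∞) (fun p : ℝ × (Fin 5 → ℂ) => p.2) := contDiff_snd
  have hμ : ContDiff ℝ (⊤ : ℕ∞) (fun p : ℝ × (Fin 5 → ℂ) => mu p.2) := mu_contDiff.comp hz
  have harg : ContDiff ℝ (⊤ : ℕ∞) (fun p : ℝ × (Fin 5 → ℂ) => p.1 ^ 2 * gc ^ 2 * mu p.2) :=
    ((contDiff_fst.pow 2).mul contDiff_const).mul hμ
  have hell : ContDiff ℝ (⊤ : ℕ∞)
      (fun p : ℝ × (Fin 5 → ℂ) => ell (p.1 ^ 2 * gc ^ 2 * mu p.2)) := by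
    rw [contDiff_iff_contDiffAt]
    intro p
    have h0 : 0 ≤ p.1 ^ 2 * gc ^ 2 * mu p.2 := by
      have := mu_nonneg p.2
      positivity
    exact (ell_contDiffAt _ (by linarith)).comp p harg.contDiffAt
  exact (contDiff_const.mul hμ).mul hell

end Crest.Agent.S0316
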