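import Crest.Agent.S0316.Defs
import Crest.Agent.S0316.TwistBasic
import Crest.Agent.S0316.Ell
import Crest.Agent.S0316.TwistSmooth

set_option autoImplicit false

/-!
# S0316 / TwistHam: the Cayley twist isotopy is Hamiltonian

`Psi0 (t, z) = tw (g t) z`, `H0 (t, z) = g μ(z) ell (t² g² μ(z))`.
Key computation: `∂_τ tw τ z = (-2i / (1 + τ² μ)) (N · tw - q · conj tw)` on coordinates `0,1,2`,
and `dμ(ζ)[w] = 4 Re (N ⟨ζ, w⟩₃ - conj q · (ζ · w)₃)`, so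
`2 Im ⟨∂_t Psi0, w⟩ = (g / (1 + t² g² μ)) dμ[w] = d (H0 t)[w]`.
-/

open Complex

namespace Crest.Agent.S0316

open Crest.GeometryTopology.Quadric

/-- `μ` as a complex number. -/
theorem TwistHam_mu_cast (z : Fin 5 → ℂ) :
    ((mu z : ℝ) : ℂ) = ((nrm3 z : ℝ) : ℂ) ^ 2 - quad3 z * (starRingEnd ℂ) (quad3 z) := by
  unfold mu
  push_cast
  rw [Complex.mul_conj]

/-- the `τ`-derivative of one coordinate of the Cayley twist -/
theorem TwistHam_hasDerivAt_twc (τ : ℝ) (z : Fin 5 → ℂ) (v : ℂ) :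
    HasDerivAt (fun s : ℝ => twc s z v)
      ((((-2 / (1 + τ ^ 2 * mu z) : ℝ) : ℂ) * I) *
        (((nrm3 z : ℝ) : ℂ) * twc τ z v - quad3 z * (starRingEnd ℂ) (twc τ z v))) τ := by
  have hμ := mu_nonneg z
  have hD : (0 : ℝ) < 1 + τ ^ 2 * mu z := by positivity
  have hne : (1 : ℂ) + (τ : ℂ) ^ 2 * ((mu z : ℝ) : ℂ) ≠ 0 := by
    have : ((1 + τ ^ 2 * mu z : ℝ) : ℂ) ≠ 0 := Complex.ofReal_ne_zero.mpr hD.ne'
    push_cast at this
    exact this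
  have hnum : HasDerivAt (fun c : ℂ => (1 - c ^ 2 * ((mu z : ℝ) : ℂ)
        - 2 * I * (c * ((nrm3 z : ℝ) : ℂ))) * v + 2 * I * c * quad3 z * (starRingEnd ℂ) v)
      ((-(2 * (τ : ℂ)) * ((mu z : ℝ) : ℂ) - 2 * I * ((nrm3 z : ℝ) : ℂ)) * v
        + 2 * I * quad3 z * (starRingEnd ℂ) v) (τ : ℂ) := by
    have h1 : HasDerivAt (fun c : ℂ => c ^ 2) (2 * (τ : ℂ)) (τ : ℂ) := by
      simpa using hasDerivAt_pow 2 (τ : ℂ)
    have h2 : HasDerivAt (fun c : ℂ => 1 - c ^ 2 * ((mu z : ℝ) : ℂ)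
        - 2 * I * (c * ((nrm3 z : ℝ) : ℂ)))
        (-(2 * (τ : ℂ)) * ((mu z : ℝ) : ℂ) - 2 * I * ((nrm3 z : ℝ) : ℂ)) (τ : ℂ) := by
      have := ((h1.mul_const ((mu z : ℝ) : ℂ)).const_sub 1).sub
        (((hasDerivAt_id (τ : ℂ)).mul_const ((nrm3 z : ℝ) : ℂ)).const_mul (2 * I))
      exact this.congr_deriv (by ring)
    have h3 : HasDerivAt (fun c : ℂ => 2 * I * c * quad3 z * (starRingEnd ℂ) v)
        (2 * I * quad3 z * (starRingEnd ℂ) v) (τ : ℂ) := by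
      have := (((hasDerivAt_id (τ : ℂ)).const_mul (2 * I)).mul_const (quad3 z)).mul_const
        ((starRingEnd ℂ) v)
      exact this.congr_deriv (by ring)
    exact (h2.mul_const v).add h3
  have hden : HasDerivAt (fun c : ℂ => 1 + c ^ 2 * ((mu z : ℝ) : ℂ))
      (2 * (τ : ℂ) * ((mu z : ℝ) : ℂ)) (τ : ℂ) := by
    have h1 : HasDerivAt (fun c : ℂ => c ^ 2) (2 * (τ : ℂ)) (τ : ℂ) := by
      simpa using hasDerivAt_pow 2 (τ : ℂ)
    exact (h1.mul_const ((mu z : ℝ) : ℂ)).const_add 1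
  have hF := (hnum.div hden hne).comp_ofReal
  have hfun : (fun s : ℝ => twc s z v) = fun s : ℝ =>
      ((1 - (s : ℂ) ^ 2 * ((mu z : ℝ) : ℂ) - 2 * I * ((s : ℂ) * ((nrm3 z : ℝ) : ℂ))) * v
        + 2 * I * (s : ℂ) * quad3 z * (starRingEnd ℂ) v) / (1 + (s : ℂ) ^ 2 * ((mu z : ℝ) : ℂ)) := by
    funext s
    unfold twc
    push_cast
    rfl
  have hval : twc τ z v =
      ((1 - (τ : ℂ) ^ 2 * ((mu z : ℝ) : ℂ) - 2 * I * ((τ : ℂ) * ((nrm3 z : ℝ) : ℂ))) * v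
        + 2 * I * (τ : ℂ) * quad3 z * (starRingEnd ℂ) v) / (1 + (τ : ℂ) ^ 2 * ((mu z : ℝ) : ℂ)) :=
    congrFun hfun τ
  rw [hfun]
  have hF' : HasDerivAt (fun s : ℝ =>
      ((1 - (s : ℂ) ^ 2 * ((mu z : ℝ) : ℂ) - 2 * I * ((s : ℂ) * ((nrm3 z : ℝ) : ℂ))) * v
        + 2 * I * (s : ℂ) * quad3 z * (starRingEnd ℂ) v) / (1 + (s : ℂ) ^ 2 * ((mu z : ℝ) : ℂ)))
      _ τ := hF
  refine hF'.congr_deriv ?_
  rw [hval]
  simp only [map_div₀, map_add, map_sub, map_mul, map_pow, Complex.conj_ofReal, Complex.conj_I,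
    map_one, map_ofNat, Complex.conj_conj]
  push_cast
  rw [TwistHam_mu_cast] at hne ⊢
  have hne' : (1 : ℂ) + (τ : ℂ) ^ 2 *
      (((nrm3 z : ℝ) : ℂ) ^ 2 - quad3 z * (starRingEnd ℂ) (quad3 z)) ≠ 0 := hne
  field_simp
  linear_combination (-2 * (τ : ℂ) * ((nrm3 z : ℝ) : ℂ) ^ 2 * v
    + 2 * (τ : ℂ) * quad3 z * (starRingEnd ℂ) (quad3 z) * v) * Complex.I_sq

theorem TwistHam_sq_line (x u : ℝ) :
    HasDerivAt (fun s : ℝ => (x + s * u) ^ 2) (2 * x * u) 0 := by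
  have h := (((hasDerivAt_id (0 : ℝ)).mul_const u).const_add x).fun_pow 2
  refine h.congr_deriv ?_
  simp

theorem TwistHam_mul_line (x u y v : ℝ) :
    HasDerivAt (fun s : ℝ => (x + s * u) * (y + s * v)) (x * v + u * y) 0 := by
  have h := (((hasDerivAt_id (0 : ℝ)).mul_const u).const_add x).fun_mul
    (((hasDerivAt_id (0 : ℝ)).mul_const v).const_add y)
  refine h.congr_deriv ?_
  simp
  ring

/-- the derivative of `μ` along a line -/
theorem TwistHam_hasDerivAt_mu_line (ζ w : Fin 5 → ℂ) :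
    HasDerivAt (fun s : ℝ => mu (ζ + s • w))
      (4 * (((nrm3 ζ : ℝ) : ℂ) * ((starRingEnd ℂ) (ζ 0) * w 0 + (starRingEnd ℂ) (ζ 1) * w 1
            + (starRingEnd ℂ) (ζ 2) * w 2)
          - (starRingEnd ℂ) (quad3 ζ) * (ζ 0 * w 0 + ζ 1 * w 1 + ζ 2 * w 2)).re) 0 := by
  have key : (fun s : ℝ => mu (ζ + s • w)) = fun s : ℝ =>
      ((((ζ 0).re + s * (w 0).re) ^ 2 + ((ζ 0).im + s * (w 0).im) ^ 2)
        + (((ζ 1).re + s * (w 1).re) ^ 2 + ((ζ 1).im + s * (w 1).im) ^ 2)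
        + (((ζ 2).re + s * (w 2).re) ^ 2 + ((ζ 2).im + s * (w 2).im) ^ 2)) ^ 2
      - ((((ζ 0).re + s * (w 0).re) ^ 2 - ((ζ 0).im + s * (w 0).im) ^ 2)
        + (((ζ 1).re + s * (w 1).re) ^ 2 - ((ζ 1).im + s * (w 1).im) ^ 2)
        + (((ζ 2).re + s * (w 2).re) ^ 2 - ((ζ 2).im + s * (w 2).im) ^ 2)) ^ 2
      - (2 * (((ζ 0).re + s * (w 0).re) * ((ζ 0).im + s * (w 0).im))
        + 2 * (((ζ 1).re + s * (w 1).re) * ((ζ 1).im + s * (w 1).im))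
        + 2 * (((ζ 2).re + s * (w 2).re) * ((ζ 2).im + s * (w 2).im))) ^ 2 := by
    funext s
    simp only [mu, nrm3, quad3, Complex.normSq_apply, Pi.add_apply, Pi.smul_apply,
      Complex.real_smul, Complex.add_re, Complex.add_im, Complex.mul_re, Complex.mul_im,
      Complex.ofReal_re, Complex.ofReal_im, pow_two]
    ring
  rw [key]
  have hN := (((TwistHam_sq_line (ζ 0).re (w 0).re).fun_add (TwistHam_sq_line (ζ 0).im (w 0).im)).fun_add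
    ((TwistHam_sq_line (ζ 1).re (w 1).re).fun_add (TwistHam_sq_line (ζ 1).im (w 1).im))).fun_add
    ((TwistHam_sq_line (ζ 2).re (w 2).re).fun_add (TwistHam_sq_line (ζ 2).im (w 2).im))
  have hR := (((TwistHam_sq_line (ζ 0).re (w 0).re).fun_sub (TwistHam_sq_line (ζ 0).im (w 0).im)).fun_add
    ((TwistHam_sq_line (ζ 1).re (w 1).re).fun_sub (TwistHam_sq_line (ζ 1).im (w 1).im))).fun_add
    ((TwistHam_sq_line (ζ 2).re (w 2).re).fun_sub (TwistHam_sq_line (ζ 2).im (w 2).im))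
  have hI := (((TwistHam_mul_line (ζ 0).re (w 0).re (ζ 0).im (w 0).im).const_mul 2).fun_add
    ((TwistHam_mul_line (ζ 1).re (w 1).re (ζ 1).im (w 1).im).const_mul 2)).fun_add
    ((TwistHam_mul_line (ζ 2).re (w 2).re (ζ 2).im (w 2).im).const_mul 2)
  have h := ((hN.fun_pow 2).fun_sub (hR.fun_pow 2)).fun_sub (hI.fun_pow 2)
  refine h.congr_deriv ?_
  simp only [nrm3, quad3, Complex.normSq_apply, Complex.add_re, Complex.add_im, Complex.mul_re,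
    Complex.mul_im, Complex.ofReal_re, Complex.ofReal_im, Complex.conj_re, Complex.conj_im,
    Complex.sub_re, pow_two]
  ring

/-- the space derivative of the Hamiltonian `H0 (t, ·)` -/
theorem TwistHam_fderiv_H0 (t : ℝ) (ζ w : Fin 5 → ℂ) :
    fderiv ℝ (fun x : Fin 5 → ℂ => H0 (t, x)) ζ w =
      gc * (1 / (1 + t ^ 2 * gc ^ 2 * mu ζ) *
        (4 * (((nrm3 ζ : ℝ) : ℂ) * ((starRingEnd ℂ) (ζ 0) * w 0 + (starRingEnd ℂ) (ζ 1) * w 1
            + (starRingEnd ℂ) (ζ 2) * w 2)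
          - (starRingEnd ℂ) (quad3 ζ) * (ζ 0 * w 0 + ζ 1 * w 1 + ζ 2 * w 2)).re)) := by
  have hdiff : DifferentiableAt ℝ (fun x : Fin 5 → ℂ => H0 (t, x)) ζ := by
    have h1 : Differentiable ℝ H0 := H0_smooth.differentiable (by simp)
    have h2 : Differentiable ℝ (fun x : Fin 5 → ℂ => ((t, x) : ℝ × (Fin 5 → ℂ))) := by fun_prop
    exact (h1.comp h2).differentiableAt
  have hline : HasDerivAt (fun s : ℝ => H0 (t, ζ + s • w))
      (fderiv ℝ (fun x : Fin 5 → ℂ => H0 (t, x)) ζ w) 0 := hdiff.hasFDerivAt.hasLineDerivAt w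
  have hmu := TwistHam_hasDerivAt_mu_line ζ w
  have hpos : -1 < t ^ 2 * gc ^ 2 * mu ζ := by
    have h0 := mu_nonneg ζ
    have : 0 ≤ t ^ 2 * gc ^ 2 * mu ζ := by positivity
    linarith
  have e0 : mu (ζ + (0 : ℝ) • w) = mu ζ := by simp
  have hell : HasDerivAt (fun y : ℝ => y * ell (t ^ 2 * gc ^ 2 * y))
      (1 / (1 + t ^ 2 * gc ^ 2 * mu ζ)) (mu (ζ + (0 : ℝ) • w)) := by
    rw [e0]
    exact hasDerivAt_mul_ell (t ^ 2 * gc ^ 2) (mu ζ) hpos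
  have hcomp := (hell.comp (0 : ℝ) hmu).const_mul gc
  have hfinal : HasDerivAt (fun s : ℝ => H0 (t, ζ + s • w))
      (gc * (1 / (1 + t ^ 2 * gc ^ 2 * mu ζ) *
        (4 * (((nrm3 ζ : ℝ) : ℂ) * ((starRingEnd ℂ) (ζ 0) * w 0 + (starRingEnd ℂ) (ζ 1) * w 1
            + (starRingEnd ℂ) (ζ 2) * w 2)
          - (starRingEnd ℂ) (quad3 ζ) * (ζ 0 * w 0 + ζ 1 * w 1 + ζ 2 * w 2)).re))) 0 := by
    have hfun : (fun s : ℝ => H0 (t, ζ + s • w)) = fun s : ℝ =>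
        gc * ((fun y : ℝ => y * ell (t ^ 2 * gc ^ 2 * y)) ∘ fun s : ℝ => mu (ζ + s • w)) s := by
      funext s
      simp only [H0, Function.comp_apply]
      ring
    rw [hfun]
    exact hcomp
  exact hline.unique hfinal

theorem TwistHam_im_aux (r : ℝ) (X : ℂ) : ((r : ℂ) * (-I) * X).im = -r * X.re := by
  simp [Complex.mul_im, Complex.mul_re]

/-- the time derivative of the twist isotopy -/
theorem TwistHam_hasDerivAt_Psi0 (t : ℝ) (z : Fin 5 → ℂ) :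
    HasDerivAt (fun s : ℝ => Psi0 (s, z))
      ![gc • ((((-2 / (1 + (gc * t) ^ 2 * mu z) : ℝ) : ℂ) * I) *
          (((nrm3 z : ℝ) : ℂ) * tw (gc * t) z 0 - quad3 z * (starRingEnd ℂ) (tw (gc * t) z 0))),
        gc • ((((-2 / (1 + (gc * t) ^ 2 * mu z) : ℝ) : ℂ) * I) *
          (((nrm3 z : ℝ) : ℂ) * tw (gc * t) z 1 - quad3 z * (starRingEnd ℂ) (tw (gc * t) z 1))),
        gc • ((((-2 / (1 + (gc * t) ^ 2 * mu z) : ℝ) : ℂ) * I) *
          (((nrm3 z : ℝ) : ℂ) * tw (gc * t) z 2 - quad3 z * (starRingEnd ℂ) (tw (gc * t) z 2))),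
        0, 0] t := by
  rw [hasDerivAt_pi]
  intro i
  have hg : HasDerivAt (fun s : ℝ => gc * s) gc t := by
    simpa using (hasDerivAt_id t).const_mul gc
  fin_cases i
  · exact (TwistHam_hasDerivAt_twc (gc * t) z (z 0)).scomp t hg
  · exact (TwistHam_hasDerivAt_twc (gc * t) z (z 1)).scomp t hg
  · exact (TwistHam_hasDerivAt_twc (gc * t) z (z 2)).scomp t hg
  · exact hasDerivAt_const t (z 3)
  · exact hasDerivAt_const t (z 4)

theorem Psi0_ham (t : ℝ) (z w : Fin 5 → ℂ) :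
    2 * (herm (deriv (fun s : ℝ => Psi0 (s, z)) t) w).im =
      fderiv ℝ (fun x : Fin 5 → ℂ => H0 (t, x)) (Psi0 (t, z)) w := by
  rw [(TwistHam_hasDerivAt_Psi0 t z).deriv, TwistHam_fderiv_H0]
  have hP : Psi0 (t, z) = tw (gc * t) z := rfl
  rw [hP, nrm3_tw, quad3_tw, mu_tw]
  have hμ := mu_nonneg z
  have hD : (0 : ℝ) < 1 + (gc * t) ^ 2 * mu z := by positivity
  have hD' : (1 : ℝ) + t ^ 2 * gc ^ 2 * mu z = 1 + (gc * t) ^ 2 * mu z := by ring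
  rw [hD']
  have hL : herm ![gc • ((((-2 / (1 + (gc * t) ^ 2 * mu z) : ℝ) : ℂ) * I) *
          (((nrm3 z : ℝ) : ℂ) * tw (gc * t) z 0 - quad3 z * (starRingEnd ℂ) (tw (gc * t) z 0))),
        gc • ((((-2 / (1 + (gc * t) ^ 2 * mu z) : ℝ) : ℂ) * I) *
          (((nrm3 z : ℝ) : ℂ) * tw (gc * t) z 1 - quad3 z * (starRingEnd ℂ) (tw (gc * t) z 1))),
        gc • ((((-2 / (1 + (gc * t) ^ 2 * mu z) : ℝ) : ℂ) * I) *
          (((nrm3 z : ℝ) : ℂ) * tw (gc * t) z 2 - quad3 z * (starRingEnd ℂ) (tw (gc * t) z 2))),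
        0, 0] w =
      ((gc * (-2 / (1 + (gc * t) ^ 2 * mu z)) : ℝ) : ℂ) * (-I) *
        (((nrm3 z : ℝ) : ℂ) * ((starRingEnd ℂ) (tw (gc * t) z 0) * w 0
            + (starRingEnd ℂ) (tw (gc * t) z 1) * w 1 + (starRingEnd ℂ) (tw (gc * t) z 2) * w 2)
          - (starRingEnd ℂ) (quad3 z) * (tw (gc * t) z 0 * w 0 + tw (gc * t) z 1 * w 1
            + tw (gc * t) z 2 * w 2)) := by
    simp only [herm, Fin.sum_univ_five, Matrix.cons_val_zero, Matrix.cons_val_one,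
      Matrix.cons_val, Complex.real_smul, map_mul, map_sub, Complex.conj_ofReal, Complex.conj_I,
      Complex.conj_conj, map_zero, zero_mul, add_zero]
    push_cast
    ring
  rw [hL, TwistHam_im_aux]
  field_simp
  ring

theorem hamPair0 : HamPair Psi0 H0 :=
  ⟨Psi0_smooth, H0_smooth, Psi0_ham⟩

end Crest.Agent.S0316
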