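import Crest.Agent.S0316.Defs
import Crest.Agent.S0316.OrthPath
import Crest.Agent.S0316.TwistBasic
import Crest.Agent.S0316.TwistHam
import Crest.Agent.S0316.Paths

set_option autoImplicit false

/-!
# S0316 / Lift: the `HamiltonianConeLift`
-/

open Complex

namespace Crest.Agent.S0316

open Crest.GeometryTopology.Quadric

theorem hamPair : HamPair Psi Ham :=
  (hamPair0.orth Lp Lp' Lp_smooth Lp'_smooth Lp_hasDerivAt Lp_orth).orth Rpi Rpi'
    Rpi_smooth Rpi'_smooth Rpi_hasDerivAt Rpi_orth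

theorem coneCompat : ConeCompat Psi Ham :=
  (coneCompat0.orth Lp Lp' Lp_orth Lp_zero).orth Rpi Rpi' Rpi_orth Rpi_zero

/-- the Hamiltonian cone lift -/
noncomputable def theLift : HamiltonianConeLift where
  Ψ := Psi
  H := Ham
  smooth_Ψ := hamPair.smooth_Ψ
  smooth_H := hamPair.smooth_H
  mapsTo_cone := by
    intro t z hz
    refine ⟨?_, ?_⟩
    · rw [coneCompat.herm_eq]; exact hz.1
    · rw [coneCompat.quad_eq]; exact hz.2
  compatible := by
    intro t z _ c hc
    exact ⟨c, coneCompat.smul_eq t z c hc⟩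
  start := by
    intro z _
    exact ⟨1, by rw [coneCompat.start, one_smul]⟩
  invariant := by
    intro t z _ c hc
    exact coneCompat.inv t z c hc
  hamilton := by
    intro t _ z _ w _
    exact hamPair.ham t z w

theorem theLift_Ψ : theLift.Ψ = Psi := rfl

theorem theLift_Ψ_one (z : Fin 5 → ℂ) : theLift.Ψ (1, z) = Phi1 z := Psi_one z

theorem Phi1_contDiff : ContDiff ℝ (⊤ : ℕ∞) Phi1 := by
  have h : Phi1 = fun z => Psi (1, z) := by
    funext z; exact (Psi_one z).symm
  rw [h]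
  exact hamPair.smooth_Ψ.comp (contDiff_prodMk_right 1)

theorem Phi1_smul (z : Fin 5 → ℂ) (c : ℂ) (hc : ‖c‖ = 1) : Phi1 (c • z) = c • Phi1 z := by
  rw [← Psi_one, ← Psi_one]; exact coneCompat.smul_eq 1 z c hc

theorem Phi1_herm (z : Fin 5 → ℂ) : herm (Phi1 z) (Phi1 z) = herm z z := by
  rw [← Psi_one]; exact coneCompat.herm_eq 1 z

theorem Phi1_quad (z : Fin 5 → ℂ) : ∑ j, Phi1 z j ^ 2 = ∑ j, z j ^ 2 := by
  rw [← Psi_one]; exact coneCompat.quad_eq 1 z

end Crest.Agent.S0316
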