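import Crest.Agent.S0316.Defs
import Crest.Agent.S0316.Lift
import Crest.Agent.S0316.FixedExist

set_option autoImplicit false

/-!
# S0316 / Degenerate: the differential of the time-one map at `z0` fixes the direction `e₂`

`Phi1` is smooth (`Phi1_contDiff`), so `fderiv ℝ Phi1 z0 e₂` is the derivative at `s = 0` of
the curve `s ↦ Phi1 (z0 + s • e₂)`.  Along this curve `nrm3 = 13/18 + s²`,
`quad3 = (4 - 3i)/18 + s²`, `mu = 4/9 + s²`, so coordinates `0,1,3,4` of the curve are even in
`s` (derivative `0`) and coordinate `2` is `-s (A(s) + B(s))` with `A(0) + B(0) = (4 - 3i)/5`.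
-/

open Complex

namespace Crest.Agent.S0316

open Crest.GeometryTopology.Quadric

/-- the curve `z0 + s e₂` -/
noncomputable def Degenerate_line (s : ℝ) : Fin 5 → ℂ := ![4 / 6, (1 - 3 * I) / 6, (s : ℂ), (1 + 3 * I) / 6, 0]

theorem Degenerate_line_eq (s : ℝ) :
    z0 + s • (Pi.single 2 1 : Fin 5 → ℂ) = Degenerate_line s := by
  funext i
  fin_cases i <;> simp [z0, Degenerate_line]

theorem Degenerate_nrm3 (s : ℝ) : nrm3 (Degenerate_line s) = 13 / 18 + s ^ 2 := by
  simp [nrm3, Degenerate_line, Complex.normSq_apply]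
  ring

theorem Degenerate_quad3 (s : ℝ) : quad3 (Degenerate_line s) = (4 - 3 * I) / 18 + (s : ℂ) ^ 2 := by
  simp [quad3, Degenerate_line]
  ring_nf
  simp [Complex.ext_iff, pow_two]
  ring_nf
  
theorem Degenerate_mu (s : ℝ) : mu (Degenerate_line s) = 4 / 9 + s ^ 2 := by
  rw [mu, Degenerate_nrm3, Degenerate_quad3]
  simp [Complex.normSq_apply, pow_two]
  ring

theorem Degenerate_even_deriv {f : ℝ → ℂ} (hf : DifferentiableAt ℝ f 0) (he : ∀ s, f (-s) = f s) :
    HasDerivAt f 0 0 := by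
  have h1 : deriv f 0 = - deriv f 0 := by
    have := deriv_comp_neg (f := f) (x := 0)
    simp only [he, neg_zero] at this
    exact this
  have h2 : deriv f 0 = 0 := by
    have : (2:ℂ) * deriv f 0 = 0 := by linear_combination h1
    simpa using this
  simpa [h2] using hf.hasDerivAt

/-- the factor `h` with `Phi1 (line s) 2 = s * h s` -/
noncomputable def Degenerate_h (s : ℝ) : ℂ :=
  -((((1 - gc ^ 2 * (4 / 9 + s ^ 2) : ℝ) : ℂ) - 2 * I * ((gc * (13 / 18 + s ^ 2) : ℝ) : ℂ))
      + 2 * I * ((gc : ℝ) : ℂ) * ((4 - 3 * I) / 18 + (s : ℂ) ^ 2)) / ((1 + gc ^ 2 * (4 / 9 + s ^ 2) : ℝ) : ℂ)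

theorem Degenerate_coord2 (s : ℝ) : Phi1 (Degenerate_line s) 2 = (s : ℂ) * Degenerate_h s := by
  have h2 : Phi1 (Degenerate_line s) 2 = -(twc gc (Degenerate_line s) (s : ℂ)) := by
    simp [Phi1, tw, Degenerate_line]
  rw [h2, twc, Degenerate_mu, Degenerate_nrm3, Degenerate_quad3, Degenerate_h, Complex.conj_ofReal]
  ring

theorem Degenerate_h_zero : Degenerate_h 0 = c0 := by
  simp [Degenerate_h, c0, gc]
  norm_num
  ring_nf
  simp [Complex.ext_iff]
  norm_num


theorem Degenerate_h_diff : DifferentiableAt ℝ Degenerate_h 0 := by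
  unfold Degenerate_h
  fun_prop (disch := (simp [gc]; norm_num))


theorem fderiv_Phi1_z0 :
    fderiv ℝ Phi1 z0 (Pi.single 2 1) = c0 • (Pi.single 2 1 : Fin 5 → ℂ) := by
  have hd : DifferentiableAt ℝ Phi1 z0 :=
    (Phi1_contDiff.differentiable (by simp)).differentiableAt
  have hline : HasDerivAt (fun s : ℝ => z0 + s • (Pi.single 2 1 : Fin 5 → ℂ)) (Pi.single 2 1) 0 := by
    simpa using ((hasDerivAt_id (0 : ℝ)).smul_const (Pi.single 2 1 : Fin 5 → ℂ)).const_add z0
  have hγ : HasDerivAt (fun s : ℝ => Phi1 (Degenerate_line s))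
      (fderiv ℝ Phi1 z0 (Pi.single 2 1)) 0 := by
    have h2 := hd.hasFDerivAt.comp_hasDerivAt_of_eq (x := (0 : ℝ)) hline (by simp)
    have h3 : (Phi1 ∘ fun s : ℝ => z0 + s • (Pi.single 2 1 : Fin 5 → ℂ))
        = fun s : ℝ => Phi1 (Degenerate_line s) := by
      funext s
      simp only [Function.comp_apply, Degenerate_line_eq]
    rwa [h3] at h2
  have hγ' : HasDerivAt (fun s : ℝ => Phi1 (Degenerate_line s))
      (c0 • (Pi.single 2 1 : Fin 5 → ℂ)) 0 := by
    have hcomp := hasDerivAt_pi.1 hγ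
    rw [hasDerivAt_pi]
    intro i
    have hev : ∀ (j : Fin 5), j ≠ 2 → ∀ s : ℝ,
        Phi1 (Degenerate_line (-s)) j = Phi1 (Degenerate_line s) j := by
      intro j hj s
      have hN : nrm3 (Degenerate_line (-s)) = nrm3 (Degenerate_line s) := by
        rw [Degenerate_nrm3, Degenerate_nrm3]; ring
      have hq : quad3 (Degenerate_line (-s)) = quad3 (Degenerate_line s) := by
        rw [Degenerate_quad3, Degenerate_quad3]; push_cast; ring
      have hm : mu (Degenerate_line (-s)) = mu (Degenerate_line s) := by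
        rw [Degenerate_mu, Degenerate_mu]; ring
      fin_cases j <;> first
        | exact absurd rfl hj
        | (simp only [Phi1, tw, twc, hN, hq, hm]; simp [Degenerate_line])
    have hzero : ∀ (j : Fin 5), j ≠ 2 →
        HasDerivAt (fun s : ℝ => Phi1 (Degenerate_line s) j) 0 0 := fun j hj =>
      Degenerate_even_deriv (hcomp j).differentiableAt (hev j hj)
    fin_cases i
    · simpa using hzero 0 (by decide)
    · simpa using hzero 1 (by decide)
    · have h1 : HasDerivAt (fun s : ℝ => ((s : ℂ)) * Degenerate_h s)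
          (((1 : ℝ) : ℂ) * Degenerate_h 0 + ((0 : ℝ) : ℂ) * deriv Degenerate_h 0) 0 :=
        ((hasDerivAt_id (0 : ℝ)).ofReal_comp).mul Degenerate_h_diff.hasDerivAt
      have h2 : (fun s : ℝ => Phi1 (Degenerate_line s) ((2 : Fin 5)))
          = fun s : ℝ => ((s : ℂ)) * Degenerate_h s := by
        funext s; exact Degenerate_coord2 s
      have h3 : ((1 : ℝ) : ℂ) * Degenerate_h 0 + ((0 : ℝ) : ℂ) * deriv Degenerate_h 0 = c0 := by
        rw [Degenerate_h_zero]; simp
      have h4 : (c0 • (Pi.single 2 1 : Fin 5 → ℂ)) (2 : Fin 5) = c0 := by simp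
      show HasDerivAt (fun s : ℝ => Phi1 (Degenerate_line s) 2)
        ((c0 • (Pi.single 2 1 : Fin 5 → ℂ)) 2) 0
      rw [h4, h2]
      rw [h3] at h1
      exact h1
    · simpa using hzero 3 (by decide)
    · simpa using hzero 4 (by decide)
  exact hγ.unique hγ'

end Crest.Agent.S0316
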