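import Crest.Agent.S0316.Defs
import Crest.Agent.S0316.TwistBasic

set_option autoImplicit false

/-!
# S0316 / NoZ4: fixed points of `Phi1` on the cone have `z 4 = 0` and `z 3 ≠ 0`
(helper11, jobs#36)
-/

open Complex

namespace Crest.Agent.S0316

open Crest.GeometryTopology.Quadric

theorem NoZ4_nrm3_cast (z : Fin 5 → ℂ) :
    ((nrm3 z : ℝ) : ℂ) = (starRingEnd ℂ) (z 0) * z 0 + (starRingEnd ℂ) (z 1) * z 1
      + (starRingEnd ℂ) (z 2) * z 2 := by
  simp only [nrm3, Complex.ofReal_add, Complex.normSq_eq_conj_mul_self]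

theorem NoZ4_mu_cast (z : Fin 5 → ℂ) :
    ((mu z : ℝ) : ℂ) = ((nrm3 z : ℝ) : ℂ) ^ 2 - (starRingEnd ℂ) (quad3 z) * quad3 z := by
  simp only [mu, Complex.ofReal_sub, Complex.ofReal_pow, Complex.normSq_eq_conj_mul_self]

theorem NoZ4_twc_mul (τ : ℝ) (z : Fin 5 → ℂ) (v : ℂ) (hD : (1 + τ ^ 2 * mu z) ≠ 0) :
    twc τ z v * ((1 + τ ^ 2 * mu z : ℝ) : ℂ)
      = (((1 - τ ^ 2 * mu z : ℝ) : ℂ) - 2 * I * ((τ * nrm3 z : ℝ) : ℂ)) * v
        + 2 * I * ((τ : ℝ) : ℂ) * quad3 z * (starRingEnd ℂ) v := by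
  have hD' : ((1 + τ ^ 2 * mu z : ℝ) : ℂ) ≠ 0 := by exact_mod_cast hD
  unfold twc
  exact div_mul_cancel₀ _ hD'

/-- `D · Σ_{j<3} conj z_j · tw(z)_j = (1 - τ²μ) N - 2 i τ μ`. -/
theorem NoZ4_pair (τ : ℝ) (z : Fin 5 → ℂ) (hD : (1 + τ ^ 2 * mu z) ≠ 0) :
    ((starRingEnd ℂ) (z 0) * twc τ z (z 0) + (starRingEnd ℂ) (z 1) * twc τ z (z 1)
      + (starRingEnd ℂ) (z 2) * twc τ z (z 2)) * ((1 + τ ^ 2 * mu z : ℝ) : ℂ)
    = (((1 - τ ^ 2 * mu z) * nrm3 z : ℝ) : ℂ) - 2 * I * ((τ * mu z : ℝ) : ℂ) := by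
  have hq : (starRingEnd ℂ) (quad3 z) = (starRingEnd ℂ) (z 0) ^ 2 + (starRingEnd ℂ) (z 1) ^ 2
      + (starRingEnd ℂ) (z 2) ^ 2 := by
    simp [quad3]
  have e0 := NoZ4_twc_mul τ z (z 0) hD
  have e1 := NoZ4_twc_mul τ z (z 1) hD
  have e2 := NoZ4_twc_mul τ z (z 2) hD
  have hμ := NoZ4_mu_cast z
  have hN := NoZ4_nrm3_cast z
  rw [hq] at hμ
  push_cast at e0 e1 e2 ⊢
  linear_combination (starRingEnd ℂ) (z 0) * e0 + (starRingEnd ℂ) (z 1) * e1
    + (starRingEnd ℂ) (z 2) * e2 + (2 * I * (τ : ℂ)) * hμ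
    - ((1 - (τ : ℂ) ^ 2 * (mu z : ℂ)) - 2 * I * (τ : ℂ) * (nrm3 z : ℂ)) * hN

theorem NoZ4_nrm3_nonneg (z : Fin 5 → ℂ) : 0 ≤ nrm3 z := by
  unfold nrm3
  linarith [Complex.normSq_nonneg (z 0), Complex.normSq_nonneg (z 1), Complex.normSq_nonneg (z 2)]

theorem NoZ4_mu_le (z : Fin 5 → ℂ) : mu z ≤ nrm3 z ^ 2 := by
  unfold mu
  linarith [Complex.normSq_nonneg (quad3 z)]

theorem NoZ4_herm_re (z : Fin 5 → ℂ) :
    (herm z z).re = nrm3 z + Complex.normSq (z 3) + Complex.normSq (z 4) := by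
  simp only [herm, Fin.sum_univ_five, nrm3, Complex.add_re, ← Complex.normSq_eq_conj_mul_self,
    Complex.ofReal_re]

/-- `Re Σ_{j<3} conj z_j · tw(z)_j ≥ 0` when `g² μ ≤ 1`. -/
theorem NoZ4_pair_re_nonneg (z : Fin 5 → ℂ) (hN : nrm3 z ≤ 1) :
    0 ≤ ((starRingEnd ℂ) (z 0) * twc gc z (z 0) + (starRingEnd ℂ) (z 1) * twc gc z (z 1)
      + (starRingEnd ℂ) (z 2) * twc gc z (z 2)).re := by
  have hμ0 := mu_nonneg z
  have hμ1 := NoZ4_mu_le z
  have hN0 := NoZ4_nrm3_nonneg z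
  have hμ1' : mu z ≤ 1 := by nlinarith
  have hD : 0 < 1 + gc ^ 2 * mu z := by unfold gc; nlinarith
  have key := congrArg Complex.re (NoZ4_pair gc z hD.ne')
  simp only [Complex.mul_re, Complex.ofReal_re, Complex.ofReal_im, Complex.sub_re, mul_zero,
    sub_zero, Complex.I_re, Complex.I_im, Complex.re_ofNat, Complex.im_ofNat, zero_mul,
    Complex.mul_im, add_zero, mul_one] at key
  have ha : 0 ≤ (1 - gc ^ 2 * mu z) * nrm3 z := by
    apply mul_nonneg _ hN0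
    unfold gc; nlinarith
  by_contra hneg
  have hneg' := not_le.mp hneg
  nlinarith

/-- A fixed line of `Phi1` lies in the hyperplane `z 4 = 0` (the fixed quadric surface of the
reflection).  Idea: if `z 4 ≠ 0` then `c = 1` and `tw g z = -Lᵀ z` on coordinates `0..3`;
pairing with `z` gives `Re ⟨z, tw z⟩ ≥ 0` (as `g² μ ≤ 9/16 < 1`) against
`-Re ⟨z, Lᵀ z⟩ < 0`. -/
theorem fixed_z4 (z : Fin 5 → ℂ) (hz : z ∈ unitCone) (c : ℂ) (h : Phi1 z = c • z) :
    z 4 = 0 := by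
  by_contra hz4
  obtain ⟨hherm, hsq⟩ := hz
  have h0 := congrFun h 0
  have h1 := congrFun h 1
  have h2 := congrFun h 2
  have h3 := congrFun h 3
  have h4 := congrFun h 4
  simp [Phi1, tw] at h0 h1 h2 h3 h4
  have hc : c = 1 := by
    have h' : (1 - c) * z 4 = 0 := by linear_combination h4
    rcases mul_eq_zero.mp h' with h'' | h''
    · linear_combination -h''
    · exact absurd h'' hz4
  subst hc
  have hre := NoZ4_herm_re z
  rw [hherm] at hre
  have hN1 : nrm3 z ≤ 1 := by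
    have : (1 : ℂ).re = 1 := Complex.one_re
    linarith [Complex.normSq_nonneg (z 3), Complex.normSq_nonneg (z 4)]
  have hS := NoZ4_pair_re_nonneg z hN1
  generalize twc gc z (z 0) = Y0 at h0 h1 h3 hS
  generalize twc gc z (z 1) = Y1 at h0 h1 h3 hS
  generalize twc gc z (z 2) = Y2 at h2 hS
  have e0 : 9 * z 0 = 4 * z 3 - (7 * Y0 - 4 * Y1) := by linear_combination -9 * h0
  have e1 : 9 * z 1 = z 3 - (4 * Y0 + 8 * Y1) := by linear_combination -9 * h1
  have e2 : z 2 = -Y2 := by linear_combination -h2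
  have e3 : 9 * z 3 = -(8 * z 3) + (Y1 - 4 * Y0) := by linear_combination -9 * h3
  have e0r := congrArg Complex.re e0
  have e0i := congrArg Complex.im e0
  have e1r := congrArg Complex.re e1
  have e1i := congrArg Complex.im e1
  have e2r := congrArg Complex.re e2
  have e2i := congrArg Complex.im e2
  have e3r := congrArg Complex.re e3
  have e3i := congrArg Complex.im e3
  simp at e0r e0i e1r e1i e2r e2i e3r e3i
  simp only [Complex.add_re, Complex.mul_re, Complex.conj_re, Complex.conj_im] at hS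
  have hid : 9 * ((z 0).re * Y0.re - -(z 0).im * Y0.im + ((z 1).re * Y1.re - -(z 1).im * Y1.im)
        + ((z 2).re * Y2.re - -(z 2).im * Y2.im)) + 9 * ((z 3).re ^ 2 + (z 3).im ^ 2)
      = -(7 * (Y0.re ^ 2 + Y0.im ^ 2) + 7 * (Y1.re ^ 2 + Y1.im ^ 2) + 9 * (Y2.re ^ 2 + Y2.im ^ 2)
        + 7 * ((z 3).re ^ 2 + (z 3).im ^ 2) + (Y1.re - (z 3).re) ^ 2 + (Y1.im - (z 3).im) ^ 2) := by
    linear_combination Y0.re * e0r + Y0.im * e0i + Y1.re * e1r + Y1.im * e1i + 9 * Y2.re * e2r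
      + 9 * Y2.im * e2i + (z 3).re * e3r + (z 3).im * e3i
  have q1 := sq_nonneg Y0.re
  have q2 := sq_nonneg Y0.im
  have q3 := sq_nonneg Y1.re
  have q4 := sq_nonneg Y1.im
  have q5 := sq_nonneg Y2.re
  have q6 := sq_nonneg Y2.im
  have q7 := sq_nonneg (z 3).re
  have q8 := sq_nonneg (z 3).im
  have q9 := sq_nonneg (Y1.re - (z 3).re)
  have q10 := sq_nonneg (Y1.im - (z 3).im)
  have a1 : Y0.re = 0 := pow_eq_zero_iff (two_ne_zero) |>.mp (le_antisymm (by linarith) q1)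
  have a2 : Y0.im = 0 := pow_eq_zero_iff (two_ne_zero) |>.mp (le_antisymm (by linarith) q2)
  have a3 : Y1.re = 0 := pow_eq_zero_iff (two_ne_zero) |>.mp (le_antisymm (by linarith) q3)
  have a4 : Y1.im = 0 := pow_eq_zero_iff (two_ne_zero) |>.mp (le_antisymm (by linarith) q4)
  have a5 : Y2.re = 0 := pow_eq_zero_iff (two_ne_zero) |>.mp (le_antisymm (by linarith) q5)
  have a6 : Y2.im = 0 := pow_eq_zero_iff (two_ne_zero) |>.mp (le_antisymm (by linarith) q6)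
  have a7 : (z 3).re = 0 := pow_eq_zero_iff (two_ne_zero) |>.mp (le_antisymm (by linarith) q7)
  have a8 : (z 3).im = 0 := pow_eq_zero_iff (two_ne_zero) |>.mp (le_antisymm (by linarith) q8)
  have b0 : Y0 = 0 := Complex.ext a1 a2
  have b1 : Y1 = 0 := Complex.ext a3 a4
  have b2 : Y2 = 0 := Complex.ext a5 a6
  have b3 : z 3 = 0 := Complex.ext a7 a8
  have c0 : z 0 = 0 := by linear_combination (1 / 9) * e0 + (4 / 9) * b3 - (7 / 9) * b0 + (4 / 9) * b1
  have c1 : z 1 = 0 := by linear_combination (1 / 9) * e1 + (1 / 9) * b3 - (4 / 9) * b0 - (8 / 9) * b1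
  have c2 : z 2 = 0 := by linear_combination e2 - b2
  rw [Fin.sum_univ_five, c0, c1, c2, b3] at hsq
  have : z 4 ^ 2 = 0 := by linear_combination hsq
  exact hz4 (pow_eq_zero_iff (two_ne_zero) |>.mp this)

/-- A fixed line of `Phi1` in `z 4 = 0` has `z 3 ≠ 0`.  Idea: if `z 3 = 0` then `q = 0`,
`tw g z = A • z` on coordinates `0,1,2` with `A = (7 - 24 i)/25`, and the equations force
`z = 0`. -/
theorem fixed_z3 (z : Fin 5 → ℂ) (hz : z ∈ unitCone) (c : ℂ) (h : Phi1 z = c • z)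
    (h4 : z 4 = 0) : z 3 ≠ 0 := by
  intro h3
  obtain ⟨hherm, hsq⟩ := hz
  have hq : quad3 z = 0 := by
    rw [Fin.sum_univ_five, h3, h4] at hsq
    unfold quad3
    linear_combination hsq
  have hre := NoZ4_herm_re z
  rw [hherm, h3, h4] at hre
  have hN : nrm3 z = 1 := by
    have : (1 : ℂ).re = 1 := Complex.one_re
    simp at hre
    linarith
  have hμ : mu z = 1 := by
    unfold mu
    rw [hq, hN]
    simp
  have htw : ∀ v : ℂ, twc gc z v = (7 - 24 * I) / 25 * v := by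
    intro v
    unfold twc gc
    rw [hq, hN, hμ]
    push_cast
    ring
  have e0 := congrFun h 0
  have e1 := congrFun h 1
  have e2 := congrFun h 2
  have e3 := congrFun h 3
  simp [Phi1, tw, htw, h3] at e0 e1 e2 e3
  have hz1 : z 1 = 4 * z 0 := by
    linear_combination ((7 + 24 * I) / 25) * e3 + (576 / 625) * (z 1 - 4 * z 0) * Complex.I_sq
  rw [hz1] at e0 e1
  have hA0 : (7 - 24 * I) / 25 * z 0 = 0 := by
    linear_combination (1 / 2) * e0 - (1 / 8) * e1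
  have c0 : z 0 = 0 := by
    linear_combination ((7 + 24 * I) / 25) * hA0 + (576 / 625) * z 0 * Complex.I_sq
  have c1 : z 1 = 0 := by rw [hz1, c0, mul_zero]
  have c2 : z 2 = 0 := by
    have : z 2 ^ 2 = 0 := by
      unfold quad3 at hq
      rw [c0, c1] at hq
      linear_combination hq
    exact pow_eq_zero_iff (two_ne_zero) |>.mp this
  unfold nrm3 at hN
  rw [c0, c1, c2] at hN
  simp at hN

end Crest.Agent.S0316
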