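import Mathlib
import Crest.Agent.S0316.RealCore.Dichotomy
import Crest.Agent.S0316.RealCore.CaseA
import Crest.Agent.S0316.RealCore.CaseB

set_option autoImplicit false

/-!
# S0316 / RealCore: the real-variable core of the fixed-point classification

Setting (normalisation `z 3 = ρ > 0` real, `z 4 = 0`): `z j = x_j + i y_j` (`j = 0,1,2`),
`tw g z j = X_j + i Y_j`, multiplier `c = cr + i ci`.  On the cone `N = 1 - ρ²`, `q = -ρ²`,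
`μ = 1 - 2ρ²`, and with `g = 3/4` the twist reads
`(1 + 9μ/16) X_j = (1 - 9μ/16) x_j + (3/2) μ y_j`, `(1 + 9μ/16) Y_j = (1 - 9μ/16) y_j - (3/2) x_j`.
The fixed-point equation `Phi1 z = c z` is `tw g z = -c Lᵀ z` (equations `G..`).
-/

namespace Crest.Agent.S0316

/-- The real core: all fixed points in the normalisation `z 3 = ρ > 0`, `z 4 = 0`. -/
theorem real_core (x0 x1 x2 y0 y1 y2 ρ X0 X1 X2 Y0 Y1 Y2 cr ci : ℝ) (hρ : 0 < ρ)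
    (hx : x0 ^ 2 + x1 ^ 2 + x2 ^ 2 = 1 / 2 - ρ ^ 2)
    (hy : y0 ^ 2 + y1 ^ 2 + y2 ^ 2 = 1 / 2) (hxy : x0 * y0 + x1 * y1 + x2 * y2 = 0)
    (hcs : cr ^ 2 + ci ^ 2 = 1)
    (TX0 : (1 + 9 / 16 * (1 - 2 * ρ ^ 2)) * X0
      = (1 - 9 / 16 * (1 - 2 * ρ ^ 2)) * x0 + 3 / 2 * (1 - 2 * ρ ^ 2) * y0)
    (TY0 : (1 + 9 / 16 * (1 - 2 * ρ ^ 2)) * Y0 = (1 - 9 / 16 * (1 - 2 * ρ ^ 2)) * y0 - 3 / 2 * x0)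
    (TX1 : (1 + 9 / 16 * (1 - 2 * ρ ^ 2)) * X1
      = (1 - 9 / 16 * (1 - 2 * ρ ^ 2)) * x1 + 3 / 2 * (1 - 2 * ρ ^ 2) * y1)
    (TY1 : (1 + 9 / 16 * (1 - 2 * ρ ^ 2)) * Y1 = (1 - 9 / 16 * (1 - 2 * ρ ^ 2)) * y1 - 3 / 2 * x1)
    (TX2 : (1 + 9 / 16 * (1 - 2 * ρ ^ 2)) * X2
      = (1 - 9 / 16 * (1 - 2 * ρ ^ 2)) * x2 + 3 / 2 * (1 - 2 * ρ ^ 2) * y2)
    (TY2 : (1 + 9 / 16 * (1 - 2 * ρ ^ 2)) * Y2 = (1 - 9 / 16 * (1 - 2 * ρ ^ 2)) * y2 - 3 / 2 * x2)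
    (G0r : X0 = -(cr * (7 * x0 + 4 * x1 + 4 * ρ) - ci * (7 * y0 + 4 * y1)) / 9)
    (G0i : Y0 = -(ci * (7 * x0 + 4 * x1 + 4 * ρ) + cr * (7 * y0 + 4 * y1)) / 9)
    (G1r : X1 = -(cr * (-4 * x0 + 8 * x1 - ρ) - ci * (-4 * y0 + 8 * y1)) / 9)
    (G1i : Y1 = -(ci * (-4 * x0 + 8 * x1 - ρ) + cr * (-4 * y0 + 8 * y1)) / 9)
    (G2r : X2 = -(cr * x2 - ci * y2))
    (G2i : Y2 = -(ci * x2 + cr * y2))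
    (G3r : ρ = -(cr * (-4 * x0 - x1 + 8 * ρ) - ci * (-4 * y0 - y1)) / 9)
    (G3i : 0 = -(ci * (-4 * x0 - x1 + 8 * ρ) + cr * (-4 * y0 - y1)) / 9) :
    x2 = 0 ∧ y2 = 0 ∧
    ((-x0 + 2 * x1 + 2 * ρ = 0 ∧ -y0 + 2 * y1 = 0 ∧
        3 * (x1 - ρ) = 4 * y0 + y1 ∧ 3 * y1 = -(4 * x0 + x1 + ρ)) ∨
     (17 * (x1 - ρ) = -3 * (4 * y0 + y1) ∧ 17 * y1 = 3 * (4 * x0 + x1 + ρ) ∧
        289 * ((-x0 + 2 * x1 + 2 * ρ) ^ 2 - (-y0 + 2 * y1) ^ 2)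
          = -104 * ((4 * x0 + x1 + ρ) ^ 2 - (4 * y0 + y1) ^ 2) ∧
        289 * ((-x0 + 2 * x1 + 2 * ρ) * (-y0 + 2 * y1))
          = -104 * ((4 * x0 + x1 + ρ) * (4 * y0 + y1)))) := by
  have hμ : 0 ≤ 1 - 2 * ρ ^ 2 := by nlinarith [sq_nonneg x0, sq_nonneg x1, sq_nonneg x2]
  have hD : 0 < 1 + 9 / 16 * (1 - 2 * ρ ^ 2) := by linarith
  have hD2 : (1 + 9 / 16 * (1 - 2 * ρ ^ 2)) ^ 2 ≠ 0 := pow_ne_zero 2 hD.ne'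
  have hc01 : X0 * Y1 - X1 * Y0 = x0 * y1 - x1 * y0 := by
    apply mul_left_cancel₀ hD2
    linear_combination ((1 + 9 / 16 * (1 - 2 * ρ ^ 2)) * Y1) * TX0
      + ((1 - 9 / 16 * (1 - 2 * ρ ^ 2)) * x0 + 3 / 2 * (1 - 2 * ρ ^ 2) * y0) * TY1
      - ((1 + 9 / 16 * (1 - 2 * ρ ^ 2)) * Y0) * TX1
      - ((1 - 9 / 16 * (1 - 2 * ρ ^ 2)) * x1 + 3 / 2 * (1 - 2 * ρ ^ 2) * y1) * TY0
  have hc12 : X1 * Y2 - X2 * Y1 = x1 * y2 - x2 * y1 := by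
    apply mul_left_cancel₀ hD2
    linear_combination ((1 + 9 / 16 * (1 - 2 * ρ ^ 2)) * Y2) * TX1
      + ((1 - 9 / 16 * (1 - 2 * ρ ^ 2)) * x1 + 3 / 2 * (1 - 2 * ρ ^ 2) * y1) * TY2
      - ((1 + 9 / 16 * (1 - 2 * ρ ^ 2)) * Y1) * TX2
      - ((1 - 9 / 16 * (1 - 2 * ρ ^ 2)) * x2 + 3 / 2 * (1 - 2 * ρ ^ 2) * y2) * TY1
  have hc02 : X0 * Y2 - X2 * Y0 = x0 * y2 - x2 * y0 := by
    apply mul_left_cancel₀ hD2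
    linear_combination ((1 + 9 / 16 * (1 - 2 * ρ ^ 2)) * Y2) * TX0
      + ((1 - 9 / 16 * (1 - 2 * ρ ^ 2)) * x0 + 3 / 2 * (1 - 2 * ρ ^ 2) * y0) * TY2
      - ((1 + 9 / 16 * (1 - 2 * ρ ^ 2)) * Y0) * TX2
      - ((1 - 9 / 16 * (1 - 2 * ρ ^ 2)) * x2 + 3 / 2 * (1 - 2 * ρ ^ 2) * y2) * TY0
  have hY : Y0 ^ 2 + Y1 ^ 2 + Y2 ^ 2 = 1 / 2 := by
    apply mul_left_cancel₀ hD2
    linear_combination ((1 + 9 / 16 * (1 - 2 * ρ ^ 2)) * Y0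
        + ((1 - 9 / 16 * (1 - 2 * ρ ^ 2)) * y0 - 3 / 2 * x0)) * TY0
      + ((1 + 9 / 16 * (1 - 2 * ρ ^ 2)) * Y1
        + ((1 - 9 / 16 * (1 - 2 * ρ ^ 2)) * y1 - 3 / 2 * x1)) * TY1
      + ((1 + 9 / 16 * (1 - 2 * ρ ^ 2)) * Y2
        + ((1 - 9 / 16 * (1 - 2 * ρ ^ 2)) * y2 - 3 / 2 * x2)) * TY2
      + (1 - 9 / 16 * (1 - 2 * ρ ^ 2)) ^ 2 * hy
      - 3 * (1 - 9 / 16 * (1 - 2 * ρ ^ 2)) * hxy + 9 / 4 * hx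
  have hXY : X0 * Y0 + X1 * Y1 + X2 * Y2 = 0 := by
    apply mul_left_cancel₀ hD2
    linear_combination ((1 + 9 / 16 * (1 - 2 * ρ ^ 2)) * Y0) * TX0
      + ((1 - 9 / 16 * (1 - 2 * ρ ^ 2)) * x0 + 3 / 2 * (1 - 2 * ρ ^ 2) * y0) * TY0
      + ((1 + 9 / 16 * (1 - 2 * ρ ^ 2)) * Y1) * TX1
      + ((1 - 9 / 16 * (1 - 2 * ρ ^ 2)) * x1 + 3 / 2 * (1 - 2 * ρ ^ 2) * y1) * TY1
      + ((1 + 9 / 16 * (1 - 2 * ρ ^ 2)) * Y2) * TX2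
      + ((1 - 9 / 16 * (1 - 2 * ρ ^ 2)) * x2 + 3 / 2 * (1 - 2 * ρ ^ 2) * y2) * TY2
      + ((1 - 9 / 16 * (1 - 2 * ρ ^ 2)) ^ 2 - 9 / 4 * (1 - 2 * ρ ^ 2)) * hxy
      - 3 / 2 * (1 - 9 / 16 * (1 - 2 * ρ ^ 2)) * hx
      + (1 - 9 / 16 * (1 - 2 * ρ ^ 2)) * (3 / 2 * (1 - 2 * ρ ^ 2)) * hy
  rcases dichotomy x0 x1 x2 y0 y1 y2 ρ X0 X1 X2 Y0 Y1 Y2 cr ci hρ.ne' hy hxy hc01 hc12 hc02 hY hXY
    hcs G0r G0i G1r G1i G2r G2i G3r G3i with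
    ⟨h0, h1, h2, h3, h4, h5⟩ | ⟨h0, h1, h2, h3, h4, h5, -⟩
  · simp only [h0, h1, h2, h3, h4, h5] at TX0 TY0 TX1 TY1 TX2 TY2 G0r G0i G1r G1i G2r G2i
    exact (caseA_false _ _ _ _ _ _ ρ cr ci hρ hx hy hxy hcs TX0 TY0 TX1 TY1 TX2 TY2
      G0r G0i G1r G1i G2r G2i G3r G3i).elim
  · have B0 : x0 = -(3 / 4) * (1 - 2 * ρ ^ 2) * y0 := by
      linear_combination -(1 / 2) * TX0 + (1 / 2) * (1 + 9 / 16 * (1 - 2 * ρ ^ 2)) * h0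
    have B1 : y1 = 3 / 4 * x1 := by
      linear_combination -(1 / 2) * TY1 + (1 / 2) * (1 + 9 / 16 * (1 - 2 * ρ ^ 2)) * h4
    have B2 : x2 = -(3 / 4) * (1 - 2 * ρ ^ 2) * y2 := by
      linear_combination -(1 / 2) * TX2 + (1 / 2) * (1 + 9 / 16 * (1 - 2 * ρ ^ 2)) * h2
    simp only [h0, h1, h2, h3, h4, h5] at G0r G0i G1r G1i G2r G2i
    exact caseB_solve x0 x1 x2 y0 y1 y2 ρ cr ci hρ hx hy hxy hcs B0 B1 B2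
      G0r G0i G1r G1i G2r G2i G3r G3i

end Crest.Agent.S0316
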