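import Crest.Agent.S0316.Defs
import Crest.Agent.S0316.TwistBasic
import Crest.Agent.S0316.Lift
import Crest.Agent.S0316.FixedExist
import Crest.Agent.S0316.NoZ4
import Crest.Agent.S0316.RealCore

set_option autoImplicit false

/-!
# S0316 / Unique: every fixed line of `Phi1` on the cone is one of the three explicit lines
-/

open Complex

namespace Crest.Agent.S0316

open Crest.GeometryTopology.Quadric

theorem unique_herm_smul (u : ℂ) (z : Fin 5 → ℂ) :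
    herm (u • z) (u • z) = (Complex.normSq u : ℂ) * herm z z := by
  simp only [herm, Pi.smul_apply, smul_eq_mul, map_mul, Finset.mul_sum]
  refine Finset.sum_congr rfl (fun j _ => ?_)
  rw [Complex.normSq_eq_conj_mul_self]; ring

theorem unique_quad_smul (u : ℂ) (z : Fin 5 → ℂ) :
    ∑ j, (u • z) j ^ 2 = u ^ 2 * ∑ j, z j ^ 2 := by
  simp only [Pi.smul_apply, smul_eq_mul, Finset.mul_sum, mul_pow]

theorem unique_cone_smul {z : Fin 5 → ℂ} (hz : z ∈ unitCone) (u : ℂ) (hu : ‖u‖ = 1) :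
    u • z ∈ unitCone := by
  refine ⟨?_, ?_⟩
  · rw [unique_herm_smul, hz.1, Complex.normSq_eq_norm_sq, hu]; simp
  · rw [unique_quad_smul, hz.2, mul_zero]

/-- real and imaginary parts of one coordinate of the twist, when `N = 1 - ρ²`, `q = -ρ²`. -/
theorem unique_twc_re_im (τ : ℝ) (z : Fin 5 → ℂ) (v : ℂ) (ρ : ℝ)
    (hN : nrm3 z = 1 - ρ ^ 2) (hq : quad3 z = -((ρ : ℂ)) ^ 2) :
    (1 + τ ^ 2 * (1 - 2 * ρ ^ 2)) * (twc τ z v).re
        = (1 - τ ^ 2 * (1 - 2 * ρ ^ 2)) * v.re + 2 * τ * (1 - 2 * ρ ^ 2) * v.im ∧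
    (1 + τ ^ 2 * (1 - 2 * ρ ^ 2)) * (twc τ z v).im
        = (1 - τ ^ 2 * (1 - 2 * ρ ^ 2)) * v.im - 2 * τ * v.re := by
  have hmu : mu z = 1 - 2 * ρ ^ 2 := by
    unfold mu
    rw [hN, hq]
    have : Complex.normSq (-((ρ : ℂ)) ^ 2) = ρ ^ 4 := by
      rw [Complex.normSq_neg, ← Complex.ofReal_pow, Complex.normSq_ofReal]; ring
    rw [this]; ring
  have hmu0 : 0 ≤ mu z := mu_nonneg z
  have hD : (1 + τ ^ 2 * mu z) ≠ 0 := by positivity
  have hDc : ((1 + τ ^ 2 * mu z : ℝ) : ℂ) ≠ 0 := by exact_mod_cast hD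
  have key : ((1 + τ ^ 2 * mu z : ℝ) : ℂ) * twc τ z v
      = (((1 - τ ^ 2 * mu z : ℝ) : ℂ) - 2 * I * ((τ * nrm3 z : ℝ) : ℂ)) * v
        + 2 * I * ((τ : ℝ) : ℂ) * quad3 z * (starRingEnd ℂ) v := by
    unfold twc
    field_simp
  rw [hq, hN, hmu] at key
  have hre := congrArg Complex.re key
  have him := congrArg Complex.im key
  rw [Complex.re_ofReal_mul] at hre
  rw [Complex.im_ofReal_mul] at him
  constructor
  · rw [hre]
    simp only [Complex.add_re, Complex.mul_re, Complex.sub_re, Complex.ofReal_re, Complex.I_re,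
      Complex.I_im, Complex.ofReal_im, Complex.conj_re, Complex.conj_im, Complex.mul_im,
      Complex.sub_im, Complex.neg_re, Complex.neg_im, Complex.re_ofNat, Complex.im_ofNat,
      ← Complex.ofReal_pow]
    ring
  · rw [him]
    simp only [Complex.add_im, Complex.mul_re, Complex.sub_re, Complex.ofReal_re,
      Complex.I_re, Complex.I_im, Complex.ofReal_im, Complex.conj_re, Complex.conj_im,
      Complex.mul_im, Complex.sub_im, Complex.neg_re, Complex.neg_im, Complex.re_ofNat,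
      Complex.im_ofNat, ← Complex.ofReal_pow]
    ring

/-- The conclusion of `real_core` for a normalised fixed point (`z 3 = ρ > 0`, `z 4 = 0`). -/
theorem unique_real (z : Fin 5 → ℂ) (hz : z ∈ unitCone) (c : ℂ) (h : Phi1 z = c • z)
    (ρ : ℝ) (hρ : 0 < ρ) (h3 : z 3 = (ρ : ℂ)) (h4 : z 4 = 0) :
    (z 2).re = 0 ∧ (z 2).im = 0 ∧
    ((-(z 0).re + 2 * (z 1).re + 2 * ρ = 0 ∧ -(z 0).im + 2 * (z 1).im = 0 ∧
        3 * ((z 1).re - ρ) = 4 * (z 0).im + (z 1).im ∧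
        3 * (z 1).im = -(4 * (z 0).re + (z 1).re + ρ)) ∨
     (17 * ((z 1).re - ρ) = -3 * (4 * (z 0).im + (z 1).im) ∧
        17 * (z 1).im = 3 * (4 * (z 0).re + (z 1).re + ρ) ∧
        289 * ((-(z 0).re + 2 * (z 1).re + 2 * ρ) ^ 2 - (-(z 0).im + 2 * (z 1).im) ^ 2)
          = -104 * ((4 * (z 0).re + (z 1).re + ρ) ^ 2 - (4 * (z 0).im + (z 1).im) ^ 2) ∧
        289 * ((-(z 0).re + 2 * (z 1).re + 2 * ρ) * (-(z 0).im + 2 * (z 1).im))
          = -104 * ((4 * (z 0).re + (z 1).re + ρ) * (4 * (z 0).im + (z 1).im)))) := by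
  -- the multiplier has modulus one
  have hcn : Complex.normSq c = 1 := by
    have h1 := Phi1_herm z
    rw [h, unique_herm_smul, hz.1, mul_one] at h1
    exact_mod_cast h1
  have hcs : c.re ^ 2 + c.im ^ 2 = 1 := by
    rw [Complex.normSq_apply] at hcn; linarith
  -- the cone equations in real form
  have hherm := hz.1
  have hquad := hz.2
  simp only [herm, Fin.sum_univ_five, h3, h4] at hherm
  simp only [Fin.sum_univ_five, h3, h4] at hquad
  have hherm_re := congrArg Complex.re hherm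
  have hquad_re := congrArg Complex.re hquad
  have hquad_im := congrArg Complex.im hquad
  simp only [Complex.add_re, Complex.mul_re, Complex.conj_re, Complex.conj_im, Complex.ofReal_re,
    Complex.ofReal_im, Complex.one_re, map_zero, Complex.zero_re, Complex.zero_im] at hherm_re
  simp only [pow_two, Complex.add_re, Complex.mul_re, Complex.ofReal_re,
    Complex.ofReal_im, Complex.zero_re, Complex.zero_im] at hquad_re
  simp only [pow_two, Complex.add_im, Complex.mul_im, Complex.ofReal_re,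
    Complex.ofReal_im, Complex.zero_re, Complex.zero_im] at hquad_im
  have hx : (z 0).re ^ 2 + (z 1).re ^ 2 + (z 2).re ^ 2 = 1 / 2 - ρ ^ 2 := by nlinarith
  have hy : (z 0).im ^ 2 + (z 1).im ^ 2 + (z 2).im ^ 2 = 1 / 2 := by nlinarith
  have hxy : (z 0).re * (z 0).im + (z 1).re * (z 1).im + (z 2).re * (z 2).im = 0 := by nlinarith
  have hN : nrm3 z = 1 - ρ ^ 2 := by
    unfold nrm3
    simp only [Complex.normSq_apply]
    nlinarith
  have hq : quad3 z = -((ρ : ℂ)) ^ 2 := by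
    unfold quad3
    linear_combination hquad
  -- the twist equations
  have e0 : tw gc z 0 = twc gc z (z 0) := rfl
  have e1 : tw gc z 1 = twc gc z (z 1) := rfl
  have e2 : tw gc z 2 = twc gc z (z 2) := rfl
  have e3 : tw gc z 3 = (ρ : ℂ) := h3
  obtain ⟨TX0, TY0⟩ := unique_twc_re_im gc z (z 0) ρ hN hq
  obtain ⟨TX1, TY1⟩ := unique_twc_re_im gc z (z 1) ρ hN hq
  obtain ⟨TX2, TY2⟩ := unique_twc_re_im gc z (z 2) ρ hN hq
  have hg2 : gc ^ 2 = 9 / 16 := by unfold gc; norm_num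
  have h2g : 2 * gc = 3 / 2 := by unfold gc; norm_num
  rw [← e0, hg2, h2g] at TX0 TY0
  rw [← e1, hg2, h2g] at TX1 TY1
  rw [← e2, hg2, h2g] at TX2 TY2
  -- the fixed point equations
  have g0 := congrFun h 0
  have g1 := congrFun h 1
  have g2 := congrFun h 2
  have g3 := congrFun h 3
  simp only [Phi1, Pi.smul_apply, smul_eq_mul, Matrix.cons_val_zero, Matrix.cons_val_one,
    Matrix.cons_val] at g0 g1 g2 g3
  rw [e3] at g0 g1 g3
  rw [h3] at g3
  have G0 : tw gc z 0 = -(c * (7 * z 0 + 4 * z 1 + 4 * (ρ : ℂ))) / 9 := by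
    linear_combination (-7 / 9 : ℂ) * g0 - (4 / 9 : ℂ) * g1 - (4 / 9 : ℂ) * g3
  have G1 : tw gc z 1 = -(c * (-4 * z 0 + 8 * z 1 - (ρ : ℂ))) / 9 := by
    linear_combination (4 / 9 : ℂ) * g0 - (8 / 9 : ℂ) * g1 + (1 / 9 : ℂ) * g3
  have G2 : tw gc z 2 = -(c * z 2) := by
    linear_combination -g2
  have G3 : (ρ : ℂ) = -(c * (-4 * z 0 - z 1 + 8 * (ρ : ℂ))) / 9 := by
    linear_combination (4 / 9 : ℂ) * g0 + (1 / 9 : ℂ) * g1 - (8 / 9 : ℂ) * g3
  have G0r := congrArg Complex.re G0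
  have G0i := congrArg Complex.im G0
  have G1r := congrArg Complex.re G1
  have G1i := congrArg Complex.im G1
  have G2r := congrArg Complex.re G2
  have G2i := congrArg Complex.im G2
  have G3r := congrArg Complex.re G3
  have G3i := congrArg Complex.im G3
  simp only [Complex.div_ofNat_re, Complex.div_ofNat_im, Complex.neg_re, Complex.neg_im,
    Complex.mul_re, Complex.mul_im, Complex.add_re, Complex.add_im, Complex.sub_re,
    Complex.sub_im, Complex.ofReal_re, Complex.ofReal_im, Complex.re_ofNat, Complex.im_ofNat]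
    at G0r G0i G1r G1i G2r G2i G3r G3i
  exact real_core (z 0).re (z 1).re (z 2).re (z 0).im (z 1).im (z 2).im ρ
    (tw gc z 0).re (tw gc z 1).re (tw gc z 2).re (tw gc z 0).im (tw gc z 1).im (tw gc z 2).im
    c.re c.im hρ hx hy hxy hcs
    TX0 TY0 TX1 TY1 TX2 TY2
    (by linear_combination G0r) (by linear_combination G0i)
    (by linear_combination G1r) (by linear_combination G1i)
    (by linear_combination G2r) (by linear_combination G2i)
    (by linear_combination G3r) (by linear_combination G3i)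

/-- Case I: the degenerate point. -/
theorem unique_caseI (z : Fin 5 → ℂ) (ρ : ℝ) (h3 : z 3 = (ρ : ℂ)) (h4 : z 4 = 0)
    (hz2 : z 2 = 0)
    (p1 : -(z 0).re + 2 * (z 1).re + 2 * ρ = 0) (p2 : -(z 0).im + 2 * (z 1).im = 0)
    (p3 : 3 * ((z 1).re - ρ) = 4 * (z 0).im + (z 1).im)
    (p4 : 3 * (z 1).im = -(4 * (z 0).re + (z 1).re + ρ)) :
    ∃ a : ℂ, z = a • z0 := by
  have hc1 : -z 0 + 2 * z 1 + 2 * (ρ : ℂ) = 0 := by
    apply Complex.ext
    · simp only [Complex.add_re, Complex.neg_re, Complex.mul_re, Complex.re_ofNat,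
        Complex.im_ofNat, Complex.ofReal_re, Complex.ofReal_im, Complex.zero_re]
      linarith
    · simp only [Complex.add_im, Complex.neg_im, Complex.mul_im, Complex.re_ofNat,
        Complex.im_ofNat, Complex.ofReal_re, Complex.ofReal_im, Complex.zero_im]
      linarith
  have hc2 : 3 * (z 1 - (ρ : ℂ)) = -(I * (4 * z 0 + z 1 + (ρ : ℂ))) := by
    apply Complex.ext
    · simp only [Complex.add_re, Complex.neg_re, Complex.mul_re, Complex.re_ofNat,
        Complex.im_ofNat, Complex.ofReal_re, Complex.ofReal_im, Complex.sub_re, Complex.sub_im,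
        Complex.I_re, Complex.I_im, Complex.add_im, Complex.mul_im]
      linarith
    · simp only [Complex.add_re, Complex.neg_im, Complex.mul_re, Complex.re_ofNat,
        Complex.im_ofNat, Complex.ofReal_re, Complex.ofReal_im, Complex.sub_re, Complex.sub_im,
        Complex.I_re, Complex.I_im, Complex.add_im, Complex.mul_im]
      linarith
  refine ⟨(4 * z 0 + z 1 + (ρ : ℂ)) / 3, ?_⟩
  funext j
  fin_cases j
  · show z 0 = (4 * z 0 + z 1 + (ρ : ℂ)) / 3 * (4 / 6)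
    linear_combination (-1 / 9 : ℂ) * hc1
  · show z 1 = (4 * z 0 + z 1 + (ρ : ℂ)) / 3 * ((1 - 3 * I) / 6)
    linear_combination (2 / 9 : ℂ) * hc1 + (1 / 6 : ℂ) * hc2
  · show z 2 = (4 * z 0 + z 1 + (ρ : ℂ)) / 3 * 0
    rw [hz2, mul_zero]
  · show z 3 = (4 * z 0 + z 1 + (ρ : ℂ)) / 3 * ((1 + 3 * I) / 6)
    rw [h3]
    linear_combination (2 / 9 : ℂ) * hc1 - (1 / 6 : ℂ) * hc2
  · show z 4 = (4 * z 0 + z 1 + (ρ : ℂ)) / 3 * 0
    rw [h4, mul_zero]

/-- Case II: the two nondegenerate points. -/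
theorem unique_caseII (z : Fin 5 → ℂ) (ρ : ℝ) (h3 : z 3 = (ρ : ℂ)) (h4 : z 4 = 0)
    (hz2 : z 2 = 0)
    (p1 : 17 * ((z 1).re - ρ) = -3 * (4 * (z 0).im + (z 1).im))
    (p2 : 17 * (z 1).im = 3 * (4 * (z 0).re + (z 1).re + ρ))
    (p3 : 289 * ((-(z 0).re + 2 * (z 1).re + 2 * ρ) ^ 2 - (-(z 0).im + 2 * (z 1).im) ^ 2)
          = -104 * ((4 * (z 0).re + (z 1).re + ρ) ^ 2 - (4 * (z 0).im + (z 1).im) ^ 2))
    (p4 : 289 * ((-(z 0).re + 2 * (z 1).re + 2 * ρ) * (-(z 0).im + 2 * (z 1).im))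
          = -104 * ((4 * (z 0).re + (z 1).re + ρ) * (4 * (z 0).im + (z 1).im))) :
    (∃ a : ℂ, z = a • zpt bet) ∨ (∃ a : ℂ, z = a • zpt (-bet)) := by
  have hc2 : 17 * (z 1 - (ρ : ℂ)) = 3 * I * (4 * z 0 + z 1 + (ρ : ℂ)) := by
    apply Complex.ext
    · simp only [Complex.add_re, Complex.mul_re, Complex.re_ofNat,
        Complex.im_ofNat, Complex.ofReal_re, Complex.ofReal_im, Complex.sub_re, Complex.sub_im,
        Complex.I_re, Complex.I_im, Complex.add_im, Complex.mul_im]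
      linarith
    · simp only [Complex.add_re, Complex.mul_re, Complex.re_ofNat,
        Complex.im_ofNat, Complex.ofReal_re, Complex.ofReal_im, Complex.sub_re, Complex.sub_im,
        Complex.I_re, Complex.I_im, Complex.add_im, Complex.mul_im]
      linarith
  have hc1sq : 289 * (-z 0 + 2 * z 1 + 2 * (ρ : ℂ)) ^ 2
      = -104 * (4 * z 0 + z 1 + (ρ : ℂ)) ^ 2 := by
    apply Complex.ext
    · simp only [pow_two, Complex.add_re, Complex.mul_re, Complex.re_ofNat, Complex.neg_re,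
        Complex.neg_im, Complex.im_ofNat, Complex.ofReal_re, Complex.ofReal_im, Complex.add_im,
        Complex.mul_im]
      linear_combination p3
    · simp only [pow_two, Complex.add_re, Complex.mul_re, Complex.re_ofNat, Complex.neg_re,
        Complex.neg_im, Complex.im_ofNat, Complex.ofReal_re, Complex.ofReal_im, Complex.add_im,
        Complex.mul_im]
      linear_combination 2 * p4
  have hb : (2601 : ℂ) * (bet : ℂ) ^ 2 = 104 := by exact_mod_cast bet_sq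
  have hprod : (-z 0 + 2 * z 1 + 2 * (ρ : ℂ) - 3 * (bet : ℂ) * I * (4 * z 0 + z 1 + (ρ : ℂ)))
      * (-z 0 + 2 * z 1 + 2 * (ρ : ℂ) + 3 * (bet : ℂ) * I * (4 * z 0 + z 1 + (ρ : ℂ))) = 0 := by
    have h289 : (289 : ℂ) ≠ 0 := by norm_num
    apply mul_left_cancel₀ h289
    linear_combination hc1sq + (4 * z 0 + z 1 + (ρ : ℂ)) ^ 2 * hb
      - 2601 * (bet : ℂ) ^ 2 * (4 * z 0 + z 1 + (ρ : ℂ)) ^ 2 * Complex.I_sq
  rcases mul_eq_zero.mp hprod with hc1 | hc1
  · left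
    refine ⟨(4 * z 0 + z 1 + (ρ : ℂ)) / 3, ?_⟩
    funext j
    fin_cases j
    · show z 0 = (4 * z 0 + z 1 + (ρ : ℂ)) / 3 * (2 / 3 - (bet : ℂ) * I)
      linear_combination (-1 / 9 : ℂ) * hc1
    · show z 1 = (4 * z 0 + z 1 + (ρ : ℂ)) / 3 * (1 / 6 + ((2 * bet + 9 / 34 : ℝ) : ℂ) * I)
      push_cast
      linear_combination (2 / 9 : ℂ) * hc1 + (1 / 34 : ℂ) * hc2
    · show z 2 = (4 * z 0 + z 1 + (ρ : ℂ)) / 3 * 0
      rw [hz2, mul_zero]
    · show z 3 = (4 * z 0 + z 1 + (ρ : ℂ)) / 3 * (1 / 6 + ((2 * bet - 9 / 34 : ℝ) : ℂ) * I)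
      rw [h3]
      push_cast
      linear_combination (2 / 9 : ℂ) * hc1 - (1 / 34 : ℂ) * hc2
    · show z 4 = (4 * z 0 + z 1 + (ρ : ℂ)) / 3 * 0
      rw [h4, mul_zero]
  · right
    refine ⟨(4 * z 0 + z 1 + (ρ : ℂ)) / 3, ?_⟩
    funext j
    fin_cases j
    · show z 0 = (4 * z 0 + z 1 + (ρ : ℂ)) / 3 * (2 / 3 - ((-bet : ℝ) : ℂ) * I)
      push_cast
      linear_combination (-1 / 9 : ℂ) * hc1
    · show z 1 = (4 * z 0 + z 1 + (ρ : ℂ)) / 3 * (1 / 6 + ((2 * (-bet) + 9 / 34 : ℝ) : ℂ) * I)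
      push_cast
      linear_combination (2 / 9 : ℂ) * hc1 + (1 / 34 : ℂ) * hc2
    · show z 2 = (4 * z 0 + z 1 + (ρ : ℂ)) / 3 * 0
      rw [hz2, mul_zero]
    · show z 3 = (4 * z 0 + z 1 + (ρ : ℂ)) / 3 * (1 / 6 + ((2 * (-bet) - 9 / 34 : ℝ) : ℂ) * I)
      rw [h3]
      push_cast
      linear_combination (2 / 9 : ℂ) * hc1 - (1 / 34 : ℂ) * hc2
    · show z 4 = (4 * z 0 + z 1 + (ρ : ℂ)) / 3 * 0
      rw [h4, mul_zero]

/-- The normalised classification: `z 3 = ρ > 0`, `z 4 = 0`. -/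
theorem unique_norm (z : Fin 5 → ℂ) (hz : z ∈ unitCone) (c : ℂ) (h : Phi1 z = c • z)
    (ρ : ℝ) (hρ : 0 < ρ) (h3 : z 3 = (ρ : ℂ)) (h4 : z 4 = 0) :
    (∃ a : ℂ, z = a • z0) ∨ (∃ a : ℂ, z = a • zpt bet) ∨ (∃ a : ℂ, z = a • zpt (-bet)) := by
  obtain ⟨hx2, hy2, hcase⟩ := unique_real z hz c h ρ hρ h3 h4
  have hz2 : z 2 = 0 := Complex.ext hx2 hy2
  rcases hcase with ⟨p1, p2, p3, p4⟩ | ⟨p1, p2, p3, p4⟩
  · exact Or.inl (unique_caseI z ρ h3 h4 hz2 p1 p2 p3 p4)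
  · exact Or.inr (unique_caseII z ρ h3 h4 hz2 p1 p2 p3 p4)

theorem fixed_unique (z : Fin 5 → ℂ) (hz : z ∈ unitCone) (c : ℂ) (h : Phi1 z = c • z) :
    (∃ a : ℂ, z = a • z0) ∨ (∃ a : ℂ, z = a • zpt bet) ∨ (∃ a : ℂ, z = a • zpt (-bet)) := by
  have h4 : z 4 = 0 := fixed_z4 z hz c h
  have h3 : z 3 ≠ 0 := fixed_z3 z hz c h h4
  have hr0 : 0 < ‖z 3‖ := norm_pos_iff.mpr h3
  have hrc : ((‖z 3‖ : ℝ) : ℂ) ≠ 0 := by exact_mod_cast hr0.ne'
  have hun : ‖(starRingEnd ℂ) (z 3) / ((‖z 3‖ : ℝ) : ℂ)‖ = 1 := by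
    rw [norm_div, RCLike.norm_conj, Complex.norm_real, Real.norm_of_nonneg hr0.le]
    exact div_self hr0.ne'
  have hu0 : (starRingEnd ℂ) (z 3) / ((‖z 3‖ : ℝ) : ℂ) ≠ 0 := by
    intro h0; rw [h0, norm_zero] at hun; exact zero_ne_one hun
  have hz' := unique_cone_smul hz _ hun
  have h' : Phi1 (((starRingEnd ℂ) (z 3) / ((‖z 3‖ : ℝ) : ℂ)) • z)
      = c • (((starRingEnd ℂ) (z 3) / ((‖z 3‖ : ℝ) : ℂ)) • z) := by
    rw [Phi1_smul z _ hun, h, smul_comm]
  have h3' : (((starRingEnd ℂ) (z 3) / ((‖z 3‖ : ℝ) : ℂ)) • z) 3 = ((‖z 3‖ : ℝ) : ℂ) := by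
    show (starRingEnd ℂ) (z 3) / ((‖z 3‖ : ℝ) : ℂ) * z 3 = ((‖z 3‖ : ℝ) : ℂ)
    rw [div_mul_eq_mul_div, Complex.conj_mul', div_eq_iff hrc]
    ring
  have h4' : (((starRingEnd ℂ) (z 3) / ((‖z 3‖ : ℝ) : ℂ)) • z) 4 = 0 := by
    show (starRingEnd ℂ) (z 3) / ((‖z 3‖ : ℝ) : ℂ) * z 4 = 0
    rw [h4, mul_zero]
  have key : ∀ w : Fin 5 → ℂ,
      (∃ a : ℂ, ((starRingEnd ℂ) (z 3) / ((‖z 3‖ : ℝ) : ℂ)) • z = a • w) → ∃ a : ℂ, z = a • w := by
    rintro w ⟨a, ha⟩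
    refine ⟨((starRingEnd ℂ) (z 3) / ((‖z 3‖ : ℝ) : ℂ))⁻¹ * a, ?_⟩
    rw [mul_smul, ← ha, smul_smul, inv_mul_cancel₀ hu0, one_smul]
  rcases unique_norm _ hz' c h' ‖z 3‖ hr0 h3' h4' with h1 | h1 | h1
  · exact Or.inl (key _ h1)
  · exact Or.inr (Or.inl (key _ h1))
  · exact Or.inr (Or.inr (key _ h1))

end Crest.Agent.S0316
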