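import Crest.Agent.S0316.Defs
import Crest.Agent.S0316.Lift
import Crest.Agent.S0316.FixedExist
import Crest.Agent.S0316.Unique
import Crest.Agent.S0316.Degenerate

set_option autoImplicit false

/-!
# S0316 / Count: exactly three fixed lines, one of them degenerate
-/

open Complex

namespace Crest.Agent.S0316

open Crest.GeometryTopology.Quadric

theorem ne_zero_of_mem_unitCone {z : Fin 5 → ℂ} (hz : z ∈ unitCone) : z ≠ 0 := by
  rintro rfl
  have h := hz.1
  simp [herm] at h

theorem span_eq_of_smul {z w : Fin 5 → ℂ} (hz : z ≠ 0) {a : ℂ} (h : z = a • w) :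
    Submodule.span ℂ {z} = Submodule.span ℂ {w} := by
  have ha : a ≠ 0 := by
    rintro rfl
    exact hz (by rw [h, zero_smul])
  rw [h]
  exact Submodule.span_singleton_smul_eq (IsUnit.mk0 a ha) w

theorem bet_neg_sq : 2601 * (-bet) ^ 2 = 104 := by
  rw [neg_sq]; exact bet_sq

theorem fixedLines_eq :
    fixedLines theLift =
      {Submodule.span ℂ {z0}, Submodule.span ℂ {zpt bet}, Submodule.span ℂ {zpt (-bet)}} := by
  ext ℓ
  simp only [fixedLines, Set.mem_setOf_eq, Set.mem_insert_iff, Set.mem_singleton_iff]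
  constructor
  · rintro ⟨z, hz, rfl, hmem⟩
    rw [theLift_Ψ_one, Submodule.mem_span_singleton] at hmem
    obtain ⟨c, hc⟩ := hmem
    have hz0 : z ≠ 0 := ne_zero_of_mem_unitCone hz
    rcases fixed_unique z hz c hc.symm with ⟨a, ha⟩ | ⟨a, ha⟩ | ⟨a, ha⟩
    · exact Or.inl (span_eq_of_smul hz0 ha)
    · exact Or.inr (Or.inl (span_eq_of_smul hz0 ha))
    · exact Or.inr (Or.inr (span_eq_of_smul hz0 ha))
  · rintro (rfl | rfl | rfl)
    · refine ⟨z0, z0_mem, rfl, ?_⟩
      rw [theLift_Ψ_one, Phi1_z0]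
      exact Submodule.smul_mem _ _ (Submodule.mem_span_singleton_self _)
    · refine ⟨zpt bet, zpt_mem bet bet_sq, rfl, ?_⟩
      rw [theLift_Ψ_one, Phi1_zpt bet bet_sq]
      exact Submodule.smul_mem _ _ (Submodule.mem_span_singleton_self _)
    · refine ⟨zpt (-bet), zpt_mem (-bet) bet_neg_sq, rfl, ?_⟩
      rw [theLift_Ψ_one, Phi1_zpt (-bet) bet_neg_sq]
      exact Submodule.smul_mem _ _ (Submodule.mem_span_singleton_self _)

theorem span_ne_of_not_smul {z w : Fin 5 → ℂ} (h : ∀ a : ℂ, z ≠ a • w) :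
    Submodule.span ℂ {z} ≠ Submodule.span ℂ {w} := by
  intro heq
  have hmem : z ∈ Submodule.span ℂ {w} := by
    rw [← heq]; exact Submodule.mem_span_singleton_self z
  rw [Submodule.mem_span_singleton] at hmem
  obtain ⟨a, ha⟩ := hmem
  exact h a ha.symm

theorem fixedLines_ncard : (fixedLines theLift).ncard = 3 := by
  rw [fixedLines_eq, Set.ncard_eq_three]
  refine ⟨_, _, _, ?_, ?_, ?_, rfl⟩
  · exact span_ne_of_not_smul (z0_not_smul_zpt bet)
  · exact span_ne_of_not_smul (z0_not_smul_zpt (-bet))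
  · refine span_ne_of_not_smul (zpt_not_smul_zpt bet (-bet) ?_)
    have := bet_pos
    linarith

theorem degenerate : HasDegenerateFixedPoint theLift := by
  refine ⟨z0, z0_mem, c0, ?_, Pi.single 2 1, ?_, ?_, 0, ?_⟩
  · rw [theLift_Ψ_one]; exact Phi1_z0
  · constructor
    · simp [herm, z0, Fin.sum_univ_five, Pi.single_apply]
    · simp [z0, Fin.sum_univ_five, Pi.single_apply]
  · intro r h
    have h2 := congrFun h 2
    simp [z0] at h2
  · have hfun : (fun x : Fin 5 → ℂ => theLift.Ψ (1, x)) = Phi1 := funext theLift_Ψ_one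
    rw [hfun, fderiv_Phi1_z0]
    simp

end Crest.Agent.S0316
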