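import Mathlib
import Crest.Prelude.Def_QuadricHamiltonian

set_option autoImplicit false

/-!
# S0316: definitions for the explicit Hamiltonian isotopy of the quadric threefold

Coordinates: `z : Fin 5 → ℂ`.  Indices `0,1,2` carry the standard action of `SO(3)`, index `3`
is the axis fixed by that `SO(3)`, index `4` is the coordinate flipped by the reflection `R`.

The isotopy is `Psi (t, z) = Rpi t · Lp t · tw (g t) z` where
* `tw τ` is the "Cayley twist": rotation of coordinates `0,1,2` about the `SO(3)` moment vector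
  `m(z)` by the angle `2 arctan (τ |m|)` (a rational map; in complex form
  `v ↦ ((1 - τ²μ - 2iτN) v + 2iτ q conj v) / (1 + τ²μ)` with `N = Σ|z_j|²`, `q = Σ z_j²`,
  `μ = N² - |q|² = |m|²`),
* `Lp t` is a Cayley path of rotations in the plane spanned by `e₀` and `e₁ + e₃`, ending at the
  rotation `L` with `cos = 7/9`,
* `Rpi t` is the rotation by `π t` in the planes `(0,1)` and `(2,3)`, ending at `-1` on `ℂ⁴`.
The time-one map is `Phi1 z = (-(L (tw g z)), z₄)`.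
-/

open Complex

namespace Crest.Agent.S0316

open Crest.GeometryTopology.Quadric

/-- the coupling constant `g = 3/4` of the Cayley twist -/
noncomputable def gc : ℝ := 3 / 4

/-- `N(z) = |z₀|² + |z₁|² + |z₂|²` -/
noncomputable def nrm3 (z : Fin 5 → ℂ) : ℝ :=
  Complex.normSq (z 0) + Complex.normSq (z 1) + Complex.normSq (z 2)

/-- `q(z) = z₀² + z₁² + z₂²` -/
noncomputable def quad3 (z : Fin 5 → ℂ) : ℂ := z 0 ^ 2 + z 1 ^ 2 + z 2 ^ 2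

/-- `μ(z) = N² - |q|²` (the squared norm of the `SO(3)` moment map) -/
noncomputable def mu (z : Fin 5 → ℂ) : ℝ := nrm3 z ^ 2 - Complex.normSq (quad3 z)

/-- one coordinate of the Cayley twist with parameter `τ`:
`((1 - τ²μ - 2iτN) v + 2iτ q conj v) / (1 + τ²μ)`. -/
noncomputable def twc (τ : ℝ) (z : Fin 5 → ℂ) (v : ℂ) : ℂ :=
  ((((1 - τ ^ 2 * mu z : ℝ) : ℂ) - 2 * I * ((τ * nrm3 z : ℝ) : ℂ)) * v
      + 2 * I * ((τ : ℝ) : ℂ) * quad3 z * (starRingEnd ℂ) v) / ((1 + τ ^ 2 * mu z : ℝ) : ℂ)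

/-- the Cayley twist: rotation of the first three coordinates about the moment vector by the
angle `2 arctan (τ |m|)`. -/
noncomputable def tw (τ : ℝ) (z : Fin 5 → ℂ) : Fin 5 → ℂ :=
  ![twc τ z (z 0), twc τ z (z 1), twc τ z (z 2), z 3, z 4]

/-- action of a real `5 × 5` matrix on `ℂ⁵` -/
noncomputable def act (M : Matrix (Fin 5) (Fin 5) ℝ) (z : Fin 5 → ℂ) : Fin 5 → ℂ :=
  fun i => ∑ j, ((M i j : ℝ) : ℂ) * z j

/-- Cayley path of rotations in the plane spanned by `e₀` and `(e₁ + e₃)/√2`: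
`Lp t = 1 + (2 t K + 2 t² K²) / (1 + t²/8)`; `Lp 0 = 1`, and `Lp 1` is the rotation `L` with
`cos = 7/9`. -/
noncomputable def Lp (t : ℝ) : Matrix (Fin 5) (Fin 5) ℝ :=
  !![1 - 2 * t ^ 2 / (8 + t ^ 2), -4 * t / (8 + t ^ 2), 0, -4 * t / (8 + t ^ 2), 0;
     4 * t / (8 + t ^ 2), 1 - t ^ 2 / (8 + t ^ 2), 0, -t ^ 2 / (8 + t ^ 2), 0;
     0, 0, 1, 0, 0;
     4 * t / (8 + t ^ 2), -t ^ 2 / (8 + t ^ 2), 0, 1 - t ^ 2 / (8 + t ^ 2), 0;
     0, 0, 0, 0, 1]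

/-- entrywise derivative of `Lp` -/
noncomputable def Lp' (t : ℝ) : Matrix (Fin 5) (Fin 5) ℝ :=
  !![-32 * t / (8 + t ^ 2) ^ 2, -(32 - 4 * t ^ 2) / (8 + t ^ 2) ^ 2, 0,
        -(32 - 4 * t ^ 2) / (8 + t ^ 2) ^ 2, 0;
     (32 - 4 * t ^ 2) / (8 + t ^ 2) ^ 2, -16 * t / (8 + t ^ 2) ^ 2, 0,
        -16 * t / (8 + t ^ 2) ^ 2, 0;
     0, 0, 0, 0, 0;
     (32 - 4 * t ^ 2) / (8 + t ^ 2) ^ 2, -16 * t / (8 + t ^ 2) ^ 2, 0,
        -16 * t / (8 + t ^ 2) ^ 2, 0;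
     0, 0, 0, 0, 0]

/-- rotation by the angle `π t` in the coordinate planes `(0,1)` and `(2,3)` -/
noncomputable def Rpi (t : ℝ) : Matrix (Fin 5) (Fin 5) ℝ :=
  !![Real.cos (Real.pi * t), -Real.sin (Real.pi * t), 0, 0, 0;
     Real.sin (Real.pi * t), Real.cos (Real.pi * t), 0, 0, 0;
     0, 0, Real.cos (Real.pi * t), -Real.sin (Real.pi * t), 0;
     0, 0, Real.sin (Real.pi * t), Real.cos (Real.pi * t), 0;
     0, 0, 0, 0, 1]

/-- entrywise derivative of `Rpi` -/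
noncomputable def Rpi' (t : ℝ) : Matrix (Fin 5) (Fin 5) ℝ :=
  !![-(Real.pi * Real.sin (Real.pi * t)), -(Real.pi * Real.cos (Real.pi * t)), 0, 0, 0;
     Real.pi * Real.cos (Real.pi * t), -(Real.pi * Real.sin (Real.pi * t)), 0, 0, 0;
     0, 0, -(Real.pi * Real.sin (Real.pi * t)), -(Real.pi * Real.cos (Real.pi * t)), 0;
     0, 0, Real.pi * Real.cos (Real.pi * t), -(Real.pi * Real.sin (Real.pi * t)), 0;
     0, 0, 0, 0, 0]

/-- `ell x = log (1 + x) / x`, extended by `1` at `x = 0` (smooth on `(-1, ∞)`). -/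
noncomputable def ell (x : ℝ) : ℝ := if x = 0 then 1 else Real.log (1 + x) / x

/-- the twist isotopy `(t, z) ↦ tw (g t) z` -/
noncomputable def Psi0 (p : ℝ × (Fin 5 → ℂ)) : Fin 5 → ℂ := tw (gc * p.1) p.2

/-- its Hamiltonian `g μ ell (t² g² μ) = log (1 + t² g² μ) / (t² g)` -/
noncomputable def H0 (p : ℝ × (Fin 5 → ℂ)) : ℝ :=
  gc * mu p.2 * ell (p.1 ^ 2 * gc ^ 2 * mu p.2)

/-- left multiplication of an isotopy by a path of real matrices -/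
noncomputable def orthPsi (M : ℝ → Matrix (Fin 5) (Fin 5) ℝ)
    (Ψ : ℝ × (Fin 5 → ℂ) → (Fin 5 → ℂ)) (p : ℝ × (Fin 5 → ℂ)) : Fin 5 → ℂ :=
  act (M p.1) (Ψ p)

/-- the Hamiltonian of `orthPsi M Ψ` when `M` is a path of orthogonal matrices with entrywise
derivative `M'` and `H` is the Hamiltonian of `Ψ`:
`Im ⟨M' Mᵀ ζ, ζ⟩ + H (t, Mᵀ ζ)`. -/
noncomputable def orthHam (M M' : ℝ → Matrix (Fin 5) (Fin 5) ℝ)
    (H : ℝ × (Fin 5 → ℂ) → ℝ) (p : ℝ × (Fin 5 → ℂ)) : ℝ :=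
  (herm (act (M' p.1 * (M p.1).transpose) p.2) p.2).im + H (p.1, act (M p.1).transpose p.2)

/-- the lifted isotopy -/
noncomputable def Psi : ℝ × (Fin 5 → ℂ) → (Fin 5 → ℂ) := orthPsi Rpi (orthPsi Lp Psi0)

/-- the lifted Hamiltonian -/
noncomputable def Ham : ℝ × (Fin 5 → ℂ) → ℝ := orthHam Rpi Rpi' (orthHam Lp Lp' H0)

/-- An isotopy with a Hamiltonian satisfying Hamilton's equation against *all* vectors `w`
(with the pairing `2 Im ⟨u, w⟩`), both smooth. -/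
structure HamPair (Ψ : ℝ × (Fin 5 → ℂ) → (Fin 5 → ℂ)) (H : ℝ × (Fin 5 → ℂ) → ℝ) : Prop where
  smooth_Ψ : ContDiff ℝ (⊤ : ℕ∞) Ψ
  smooth_H : ContDiff ℝ (⊤ : ℕ∞) H
  ham : ∀ (t : ℝ) (z w : Fin 5 → ℂ),
    2 * (herm (deriv (fun s : ℝ => Ψ (s, z)) t) w).im =
      fderiv ℝ (fun x : Fin 5 → ℂ => H (t, x)) (Ψ (t, z)) w

/-- Compatibility of an isotopy and a Hamiltonian with the cone and with unit scalars. -/
structure ConeCompat (Ψ : ℝ × (Fin 5 → ℂ) → (Fin 5 → ℂ)) (H : ℝ × (Fin 5 → ℂ) → ℝ) : Prop where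
  herm_eq : ∀ (t : ℝ) (z : Fin 5 → ℂ), herm (Ψ (t, z)) (Ψ (t, z)) = herm z z
  quad_eq : ∀ (t : ℝ) (z : Fin 5 → ℂ), ∑ j, Ψ (t, z) j ^ 2 = ∑ j, z j ^ 2
  smul_eq : ∀ (t : ℝ) (z : Fin 5 → ℂ) (c : ℂ), ‖c‖ = 1 → Ψ (t, c • z) = c • Ψ (t, z)
  start : ∀ z : Fin 5 → ℂ, Ψ (0, z) = z
  inv : ∀ (t : ℝ) (z : Fin 5 → ℂ) (c : ℂ), ‖c‖ = 1 → H (t, c • z) = H (t, z)

/-- the time-one map of `Psi`: `(-(L (tw g z)), z₄)` with
`L = (1/9) [[7,-4,0,-4],[4,8,0,-1],[0,0,9,0],[4,-1,0,8]]`. -/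
noncomputable def Phi1 (z : Fin 5 → ℂ) : Fin 5 → ℂ :=
  ![-(7 * tw gc z 0 - 4 * tw gc z 1 - 4 * tw gc z 3) / 9,
    -(4 * tw gc z 0 + 8 * tw gc z 1 - tw gc z 3) / 9,
    -(tw gc z 2),
    -(4 * tw gc z 0 - tw gc z 1 + 8 * tw gc z 3) / 9,
    tw gc z 4]

/-- the degenerate fixed point `(4, 1 - 3i, 0, 1 + 3i, 0) / 6` -/
noncomputable def z0 : Fin 5 → ℂ := ![4 / 6, (1 - 3 * I) / 6, 0, (1 + 3 * I) / 6, 0]

/-- its multiplier -/
noncomputable def c0 : ℂ := (-4 + 3 * I) / 5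

/-- the family containing the two nondegenerate fixed points (for `2601 b² = 104`):
`(1/6)(4,1,0,1) + i (b (-1,2,0,2) + (9/34) (0,1,0,-1))`. -/
noncomputable def zpt (b : ℝ) : Fin 5 → ℂ :=
  ![2 / 3 - (b : ℂ) * I, 1 / 6 + ((2 * b + 9 / 34 : ℝ) : ℂ) * I, 0,
    1 / 6 + ((2 * b - 9 / 34 : ℝ) : ℂ) * I, 0]

/-- the multiplier of `zpt b` -/
noncomputable def cpt (b : ℝ) : ℂ :=
  (1 / 6 + ((2 * b - 9 / 34 : ℝ) : ℂ) * I) / (1 / 6 - ((2 * b - 9 / 34 : ℝ) : ℂ) * I)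

/-- `β = 2 √26 / 51`, a root of `2601 b² = 104` -/
noncomputable def bet : ℝ := 2 * Real.sqrt 26 / 51

end Crest.Agent.S0316
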